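import Crest.Agent.Lib.S66.Frames

/-!
# S0066: the cascade lower bound on the number of flips in the tree part
-/

namespace Crest.Agent.Lib.S66

open scoped Classical

variable {h : ℕ}

/-- Being inside the interval of a node. -/
def Under (e : TE h) (v : Nd h) : Prop := lo v ≤ lo e.nd ∧ hi e.nd ≤ hi v

/-- Being strictly under a node. -/
def SUnder (e : TE h) (v : Nd h) : Prop := Under e v ∧ e.lev < v.d

lemma under_of_nd {e : TE h} {v : Nd h} (he : e.nd = v) : Under e v := by
  rw [Under, he]; exact ⟨le_refl _, le_refl _⟩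

lemma under_lev_le {e : TE h} {v : Nd h} (he : Under e v) : e.lev ≤ v.d := by
  have h1 := hi_eq e.nd
  have h2 := hi_eq v
  obtain ⟨h3, h4⟩ := he
  have h5 : 2 ^ e.nd.d ≤ 2 ^ v.d := by omega
  exact (Nat.pow_le_pow_iff_right (by norm_num)).mp h5

/-- The flips of `b` in the tree part. -/
def flip (b : TE h → TE h → Bool) (r c : TE h) : Prop := b r c ≠ val r c

/-- Edges with `b = 1`. -/
def E0 (b : TE h → TE h → Bool) (Wr Wc : Finset (TE h)) (v : Nd h) (x y : TE h) : Prop :=
  x ∉ Wr ∧ y ∉ Wc ∧ b x y = true ∧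
    ((v.d = 0 ∧ x.nd = v ∧ y.nd = v ∧ x.lab = .a ∧ y.lab = .m) ∨
     (0 < v.d ∧ ((x.nd = v ∧ SUnder y v) ∨ (SUnder x v ∧ y.nd = v) ∨
       (x.nd = v ∧ y.nd = v ∧ ((x.lab = .m ∧ y.lab = .a) ∨ (x.lab = .p ∧ y.lab = .m))))))

/-- Edges with `b = 0`. -/
def E1 (b : TE h → TE h → Bool) (Wr Wc : Finset (TE h)) (v : Nd h) (x y : TE h) : Prop :=
  x ∉ Wr ∧ y ∉ Wc ∧ b x y = false ∧ x.nd = v ∧ y.nd = v ∧
    ((x.lab = .a ∧ y.lab = .m) ∨ (0 < v.d ∧ x.lab = .m ∧ y.lab = .p))

/-- All edges at a node. -/
def EE (b : TE h → TE h → Bool) (Wr Wc : Finset (TE h)) (v : Nd h) (x y : TE h) : Prop :=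
  E0 b Wr Wc v x y ∨ E1 b Wr Wc v x y

/-- No designated good tuple shows the forbidden pattern. -/
def NoP (b : TE h → TE h → Bool) (Wr Wc : Finset (TE h)) : Prop :=
  ∀ (φ : Frame h) (r1 r2 c1 c2 : TE h), r1 ∉ Wr → r2 ∉ Wr → c1 ∉ Wc → c2 ∉ Wc →
    (tau φ false).mem r1 = true → (tau φ true).mem r2 = true →
    (sig φ false).mem c1 = true → (sig φ true).mem c2 = true → r1 < r2 → c1 < c2 →
    ¬ (b r1 c1 = false ∧ b r1 c2 = true ∧ b r2 c1 = false ∧ b r2 c2 = false)

/-- Vertex covers. -/
def Covers (E : TE h → TE h → Prop) (CR CC : Finset (TE h)) : Prop :=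
  ∀ x y, E x y → x ∈ CR ∨ y ∈ CC

/-- The number of bad elements under a node. -/
noncomputable def badN (Wr Wc : Finset (TE h)) (v : Nd h) : ℕ :=
  (Wr.filter (fun e => Under e v)).card + (Wc.filter (fun e => Under e v)).card

lemma E_under {b : TE h → TE h → Bool} {Wr Wc : Finset (TE h)} {v : Nd h} {x y : TE h}
    (he : EE b Wr Wc v x y) : Under x v ∧ Under y v := by
  rcases he with ⟨_, _, _, h1⟩ | ⟨_, _, _, h2, h3, _⟩
  · rcases h1 with ⟨_, h2, h3, _⟩ | ⟨_, h2 | h2 | h2⟩
    · exact ⟨under_of_nd h2, under_of_nd h3⟩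
    · exact ⟨under_of_nd h2.1, h2.2.1⟩
    · exact ⟨h2.1.1, under_of_nd h2.2⟩
    · exact ⟨under_of_nd h2.1, under_of_nd h2.2.1⟩
  · exact ⟨under_of_nd h2, under_of_nd h3⟩

/-- Left child. -/
def leftCh (u : Nd h) (hu : 0 < u.d) : Nd h :=
  mkNd (u.d - 1) (2 * u.i) (by have := u.d_le; omega) (by
    have h1 := u.i_lt
    have h2 := u.d_le
    have h3 : h - (u.d - 1) = h - u.d + 1 := by omega
    rw [h3, pow_succ]; omega)

/-- Right child. -/
def rightCh (u : Nd h) (hu : 0 < u.d) : Nd h :=
  mkNd (u.d - 1) (2 * u.i + 1) (by have := u.d_le; omega) (by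
    have h1 := u.i_lt
    have h2 := u.d_le
    have h3 : h - (u.d - 1) = h - u.d + 1 := by omega
    rw [h3, pow_succ]; omega)

lemma leftCh_d (u : Nd h) (hu : 0 < u.d) : (leftCh u hu).d = u.d - 1 := rfl
lemma rightCh_d (u : Nd h) (hu : 0 < u.d) : (rightCh u hu).d = u.d - 1 := rfl

lemma pow_aux (u : Nd h) (hu : 0 < u.d) : 2 ^ (u.d - 1 + 1) = 2 ^ u.d := by
  congr 1; omega

lemma leftCh_lo (u : Nd h) (hu : 0 < u.d) : lo (leftCh u hu) = lo u := by
  simp only [lo, leftCh, mkNd_d, mkNd_i]
  rw [pow_aux u hu, pow_succ]; ring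

lemma leftCh_hi (u : Nd h) (hu : 0 < u.d) : hi (leftCh u hu) = mid u := by
  simp only [hi, mid, leftCh, mkNd_d, mkNd_i]
  rw [pow_aux u hu, pow_succ]; ring

lemma rightCh_lo (u : Nd h) (hu : 0 < u.d) : lo (rightCh u hu) = mid u := by
  simp only [lo, mid, rightCh, mkNd_d, mkNd_i]
  rw [pow_aux u hu, pow_succ]; ring

lemma rightCh_hi (u : Nd h) (hu : 0 < u.d) : hi (rightCh u hu) = hi u := by
  simp only [hi, rightCh, mkNd_d, mkNd_i]
  rw [pow_aux u hu, pow_succ]; ring

/-- The child selected by a bit. -/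
def child (u : Nd h) (hu : 0 < u.d) (right : Bool) : Nd h :=
  if right then rightCh u hu else leftCh u hu

lemma child_d (u : Nd h) (hu : 0 < u.d) (right : Bool) : (child u hu right).d = u.d - 1 := by
  cases right <;> rfl

lemma child_under {u : Nd h} {hu : 0 < u.d} {right : Bool} {e : TE h}
    (he : Under e (child u hu right)) : SUnder e u := by
  have hl := under_lev_le he
  rw [child_d] at hl
  have h1 := lo_lt_mid u
  have h2 := mid_lt_hi u
  obtain ⟨h3, h4⟩ := he
  cases right
  · simp only [child, if_false, Bool.false_eq_true, leftCh_lo, leftCh_hi] at h3 h4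
    exact ⟨⟨h3, by omega⟩, by omega⟩
  · simp only [child, if_true, rightCh_lo, rightCh_hi] at h3 h4
    exact ⟨⟨by omega, h4⟩, by omega⟩

/-- Nothing at `u` is under a child of `u`. -/
lemma not_under_child {u : Nd h} {hu : 0 < u.d} {right : Bool} {e : TE h}
    (he : e.nd = u) : ¬ Under e (child u hu right) := by
  intro h1
  have := (child_under h1).2
  simp only [TE.lev, he] at this
  omega

/-- The two children do not overlap. -/
lemma under_excl {u : Nd h} {hu : 0 < u.d} {e : TE h}
    (h1 : Under e (child u hu false)) (h2 : Under e (child u hu true)) : False := by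
  obtain ⟨-, h3⟩ := h1
  obtain ⟨h4, -⟩ := h2
  simp only [child, if_false, Bool.false_eq_true, if_true, leftCh_hi, rightCh_lo] at h3 h4
  have := lo_lt_mid e.nd
  have := mid_lt_hi e.nd
  omega

/-- Row label of a pair. -/
def rlab (isO right : Bool) : Lab := if isO then rO right else rZ right
/-- Column label of a pair. -/
def clab (isO right : Bool) : Lab := if isO then cO right else cZ right

/-- Child edges of a given type. -/
def Ek (b : TE h → TE h → Bool) (Wr Wc : Finset (TE h)) (u : Nd h) (hu : 0 < u.d)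
    (isO right : Bool) (x y : TE h) : Prop :=
  if isO then E1 b Wr Wc (child u hu right) x y else E0 b Wr Wc (child u hu right) x y

lemma val_under_right {r y : TE h} {u : Nd h} (hr : r.nd = u) (hy : SUnder y u) :
    val r y = false := by
  have h1 := lo_lt_mid y.nd
  have h2 := mid_lt_hi y.nd
  obtain ⟨⟨h3, _⟩, h5⟩ := hy
  apply val_other
  · intro g; simp only [TE.lev] at h5; rw [hr] at g; rw [← g] at h5; omega
  · rw [hr]; omega

lemma val_under_left {x c : TE h} {u : Nd h} (hx : SUnder x u) (hc : c.nd = u) :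
    val x c = false := by
  have h1 := lo_lt_mid x.nd
  have h2 := mid_lt_hi x.nd
  obtain ⟨⟨_, h3⟩, h5⟩ := hx
  apply val_other
  · intro g; simp only [TE.lev] at h5; rw [hc] at g; rw [g] at h5; omega
  · rw [hc]; omega

/-- Frames for `Z` tuples. -/
lemma frame_Z {b : TE h → TE h → Bool} {Wr Wc : Finset (TE h)} {u : Nd h} {hu : 0 < u.d}
    {right : Bool} {x y r c : TE h} (he : E0 b Wr Wc (child u hu right) x y)
    (hr : r.nd = u) (hrl : r.lab = rZ right) (hc : c.nd = u) (hcl : c.lab = cZ right) :
    ∃ φ : Frame h, (tau φ false).mem x = true ∧ (tau φ true).mem r = true ∧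
      (sig φ false).mem c = true ∧ (sig φ true).mem y = true := by
  obtain ⟨_, _, _, hcat⟩ := he
  have hdc := child_d u hu right
  have hud := u.d_le
  have hrlev : r.lev = u.d := by simp only [TE.lev, hr]
  have hclev : c.lev = u.d := by simp only [TE.lev, hc]
  rcases hcat with ⟨h0, h1, h2, h3, h4⟩ | ⟨h0, hk⟩
  · refine ⟨.inr (false, right), ?_, ?_, ?_, ?_⟩
    · simp only [tau, mem_single, TE.lev, h1]; exact ⟨h0, h3⟩
    · simp only [tau, mem_single]; exact ⟨by omega, hrl⟩
    · simp only [sig, mem_single]; exact ⟨by omega, hcl⟩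
    · simp only [sig, mem_single, TE.lev, h2]; exact ⟨h0, h4⟩
  · have hx : u.d - 2 < h - 1 := by omega
    have e1 : u.d - 2 + 1 = (child u hu right).d := by omega
    have e2 : u.d - 2 + 2 = u.d := by omega
    rcases hk with ⟨h1, h2⟩ | ⟨h1, h2⟩ | ⟨h1, h2, h3⟩
    · refine ⟨.inl (⟨u.d - 2, hx⟩, .A, right), ?_, ?_, ?_, ?_⟩
      · simp only [tau, mem_exact, TE.lev, h1, e1]
      · simp only [tau, mem_single, e2]; exact ⟨hrlev, hrl⟩
      · simp only [sig, mem_single, e2]; exact ⟨hclev, hcl⟩
      · simp only [sig, mem_below, e1]; exact h2.2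
    · refine ⟨.inl (⟨u.d - 2, hx⟩, .B, right), ?_, ?_, ?_, ?_⟩
      · simp only [tau, mem_below, e1]; exact h1.2
      · simp only [tau, mem_single, e2]; exact ⟨hrlev, hrl⟩
      · simp only [sig, mem_single, e2]; exact ⟨hclev, hcl⟩
      · simp only [sig, mem_exact, TE.lev, h2, e1]
    · rcases h3 with ⟨h3, h4⟩ | ⟨h3, h4⟩
      · refine ⟨.inl (⟨u.d - 2, hx⟩, .C1, right), ?_, ?_, ?_, ?_⟩
        · simp only [tau, mem_single, TE.lev, h1, e1]; exact ⟨trivial, h3⟩
        · simp only [tau, mem_single, e2]; exact ⟨hrlev, hrl⟩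
        · simp only [sig, mem_single, e2]; exact ⟨hclev, hcl⟩
        · simp only [sig, mem_single, TE.lev, h2, e1]; exact ⟨trivial, h4⟩
      · refine ⟨.inl (⟨u.d - 2, hx⟩, .C2, right), ?_, ?_, ?_, ?_⟩
        · simp only [tau, mem_single, TE.lev, h1, e1]; exact ⟨trivial, h3⟩
        · simp only [tau, mem_single, e2]; exact ⟨hrlev, hrl⟩
        · simp only [sig, mem_single, e2]; exact ⟨hclev, hcl⟩
        · simp only [sig, mem_single, TE.lev, h2, e1]; exact ⟨trivial, h4⟩

/-- Frames for `O` tuples. -/
lemma frame_O {b : TE h → TE h → Bool} {Wr Wc : Finset (TE h)} {u : Nd h} {hu : 0 < u.d}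
    {right : Bool} {x y r c : TE h} (he : E1 b Wr Wc (child u hu right) x y)
    (hr : r.nd = u) (hrl : r.lab = rO right) (hc : c.nd = u) (hcl : c.lab = cO right) :
    ∃ φ : Frame h, (tau φ false).mem r = true ∧ (tau φ true).mem x = true ∧
      (sig φ false).mem y = true ∧ (sig φ true).mem c = true := by
  obtain ⟨_, _, _, h1, h2, hlab⟩ := he
  have hdc := child_d u hu right
  have hud := u.d_le
  have hrlev : r.lev = u.d := by simp only [TE.lev, hr]
  have hclev : c.lev = u.d := by simp only [TE.lev, hc]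
  by_cases h0 : (child u hu right).d = 0
  · have hlab' : x.lab = .a ∧ y.lab = .m := by
      rcases hlab with g | ⟨g, _⟩
      · exact g
      · omega
    refine ⟨.inr (true, right), ?_, ?_, ?_, ?_⟩
    · simp only [tau, mem_single]; exact ⟨by omega, hrl⟩
    · simp only [tau, mem_single, TE.lev, h1]; exact ⟨h0, hlab'.1⟩
    · simp only [sig, mem_single, TE.lev, h2]; exact ⟨h0, hlab'.2⟩
    · simp only [sig, mem_single]; exact ⟨by omega, hcl⟩
  · have hx : u.d - 2 < h - 1 := by omega
    have e1 : u.d - 2 + 1 = (child u hu right).d := by omega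
    have e2 : u.d - 2 + 2 = u.d := by omega
    rcases hlab with ⟨h3, h4⟩ | ⟨_, h3, h4⟩
    · refine ⟨.inl (⟨u.d - 2, hx⟩, .O1, right), ?_, ?_, ?_, ?_⟩
      · simp only [tau, mem_single, e2]; exact ⟨hrlev, hrl⟩
      · simp only [tau, mem_single, TE.lev, h1, e1]; exact ⟨trivial, h3⟩
      · simp only [sig, mem_single, TE.lev, h2, e1]; exact ⟨trivial, h4⟩
      · simp only [sig, mem_single, e2]; exact ⟨hclev, hcl⟩
    · refine ⟨.inl (⟨u.d - 2, hx⟩, .O2, right), ?_, ?_, ?_, ?_⟩
      · simp only [tau, mem_single, e2]; exact ⟨hrlev, hrl⟩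
      · simp only [tau, mem_single, TE.lev, h1, e1]; exact ⟨trivial, h3⟩
      · simp only [sig, mem_single, TE.lev, h2, e1]; exact ⟨trivial, h4⟩
      · simp only [sig, mem_single, e2]; exact ⟨hclev, hcl⟩

lemma Ek_good {b : TE h → TE h → Bool} {Wr Wc : Finset (TE h)} {u : Nd h} {hu : 0 < u.d}
    {isO right : Bool} {x y : TE h} (he : Ek b Wr Wc u hu isO right x y) :
    x ∉ Wr ∧ y ∉ Wc := by
  cases isO
  · simp only [Ek, if_false, Bool.false_eq_true] at he; exact ⟨he.1, he.2.1⟩
  · simp only [Ek, if_true] at he; exact ⟨he.1, he.2.1⟩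

lemma Ek_under {b : TE h → TE h → Bool} {Wr Wc : Finset (TE h)} {u : Nd h} {hu : 0 < u.d}
    {isO right : Bool} {x y : TE h} (he : Ek b Wr Wc u hu isO right x y) :
    Under x (child u hu right) ∧ Under y (child u hu right) := by
  cases isO
  · simp only [Ek, if_false, Bool.false_eq_true] at he; exact E_under (Or.inl he)
  · simp only [Ek, if_true] at he; exact E_under (Or.inr he)

/-- The key trichotomy for a child edge and a block pair. -/
lemma triple {b : TE h → TE h → Bool} {Wr Wc : Finset (TE h)} (hN : NoP b Wr Wc)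
    {u : Nd h} {hu : 0 < u.d} {isO right : Bool} {x y r c : TE h}
    (he : Ek b Wr Wc u hu isO right x y)
    (hr : r.nd = u) (hrl : r.lab = rlab isO right) (hrW : r ∉ Wr)
    (hc : c.nd = u) (hcl : c.lab = clab isO right) (hcW : c ∉ Wc) :
    flip b r c ∨ flip b x c ∨ flip b r y := by
  obtain ⟨hx, hy⟩ := Ek_under he
  have sx := child_under hx
  have sy := child_under hy
  have hxW := (Ek_good he).1
  have hyW := (Ek_good he).2
  have v1 : val x c = false := val_under_left sx hc
  have v2 : val r y = false := val_under_right hr sy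
  have hrc : r.nd = c.nd := by rw [hr, hc]
  have hh1 := lo_lt_mid u
  have hh2 := mid_lt_hi u
  simp only [flip, v1, v2, ne_eq, Bool.not_eq_false]
  rw [val_same hrc]
  cases isO
  · simp only [Ek, if_false, Bool.false_eq_true] at he
    simp only [rlab, clab, if_false, Bool.false_eq_true] at hrl hcl
    have hbxy := he.2.2.1
    obtain ⟨φ, t1, t2, s1, s2⟩ := frame_Z he hr hrl hc hcl
    have hxr : x < r := by
      cases right
      · have hl : r.lab = .m := by simpa [rZ] using hrl
        apply TE.left_lt_m hl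
        have := hx.2
        simp only [child, if_false, Bool.false_eq_true, leftCh_hi] at this
        rw [hr]; exact this
      · have hl : r.lab = .p := by simpa [rZ] using hrl
        apply TE.under_lt_p hl
        · rw [hr]; exact sx.2
        · rw [hr]; exact sx.1.1
        · rw [hr]; exact sx.1.2
    have hcy : c < y := by
      cases right
      · have hl : c.lab = .a := by simpa [cZ] using hcl
        apply TE.a_lt_under hl
        · rw [hc]; exact sy.2
        · rw [hc]; exact sy.1.1
        · rw [hc]; exact sy.1.2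
      · have hl : c.lab = .m := by simpa [cZ] using hcl
        apply TE.m_lt_right hl
        have := hy.1
        simp only [child, if_true, rightCh_lo] at this
        rw [hc]; exact this
    have hno := hN φ x r c y hxW hrW hcW hyW t1 t2 s1 s2 hxr hcy
    have htb : tbl r.lab c.lab = false := by
      rw [hrl, hcl]; cases right <;> rfl
    rw [htb]
    by_contra hcon
    push_neg at hcon
    obtain ⟨g1, g2, g3⟩ := hcon
    simp only [ne_eq, Bool.not_eq_false, not_not] at g1 g2 g3
    exact hno ⟨by simpa using g2, hbxy, by simpa using g1, by simpa using g3⟩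
  · simp only [Ek, if_true] at he
    simp only [rlab, clab, if_true] at hrl hcl
    have hbxy := he.2.2.1
    obtain ⟨φ, t1, t2, s1, s2⟩ := frame_O he hr hrl hc hcl
    have hrx : r < x := by
      cases right
      · have hl : r.lab = .a := by simpa [rO] using hrl
        apply TE.a_lt_under hl
        · rw [hr]; exact sx.2
        · rw [hr]; exact sx.1.1
        · rw [hr]; exact sx.1.2
      · have hl : r.lab = .m := by simpa [rO] using hrl
        apply TE.m_lt_right hl
        have := hx.1
        simp only [child, if_true, rightCh_lo] at this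
        rw [hr]; exact this
    have hyc : y < c := by
      cases right
      · have hl : c.lab = .m := by simpa [cO] using hcl
        apply TE.left_lt_m hl
        have := hy.2
        simp only [child, if_false, Bool.false_eq_true, leftCh_hi] at this
        rw [hc]; exact this
      · have hl : c.lab = .p := by simpa [cO] using hcl
        apply TE.under_lt_p hl
        · rw [hc]; exact sy.2
        · rw [hc]; exact sy.1.1
        · rw [hc]; exact sy.1.2
    have hno := hN φ r x y c hrW hxW hyW hcW t1 t2 s1 s2 hrx hyc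
    have htb : tbl r.lab c.lab = true := by
      rw [hrl, hcl]; cases right <;> rfl
    rw [htb]
    by_contra hcon
    push_neg at hcon
    obtain ⟨g1, g2, g3⟩ := hcon
    simp only [ne_eq, not_not, Bool.not_eq_false] at g1 g2 g3
    exact hno ⟨by simpa using g3, by simpa using g1, hbxy, by simpa using g2⟩

/-- A flip at a block pair is an edge at `u`. -/
lemma edge_of_flip_rc {b : TE h → TE h → Bool} {Wr Wc : Finset (TE h)}
    {u : Nd h} (hu : 0 < u.d) {isO right : Bool} {r c : TE h}
    (hr : r.nd = u) (hrl : r.lab = rlab isO right) (hrW : r ∉ Wr)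
    (hc : c.nd = u) (hcl : c.lab = clab isO right) (hcW : c ∉ Wc)
    (hf : flip b r c) : EE b Wr Wc u r c := by
  have hrc : r.nd = c.nd := by rw [hr, hc]
  simp only [flip] at hf
  rw [val_same hrc] at hf
  cases isO <;> cases right <;>
    simp only [rlab, clab, rZ, cZ, rO, cO, if_true, if_false, Bool.false_eq_true] at hrl hcl <;>
    rw [hrl, hcl] at hf <;> simp only [tbl] at hf
  · left
    refine ⟨hrW, hcW, by simpa using hf, Or.inr ⟨hu, Or.inr (Or.inr ⟨hr, hc, Or.inl ⟨hrl, hcl⟩⟩)⟩⟩
  · left
    refine ⟨hrW, hcW, by simpa using hf, Or.inr ⟨hu, Or.inr (Or.inr ⟨hr, hc, Or.inr ⟨hrl, hcl⟩⟩)⟩⟩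
  · right
    exact ⟨hrW, hcW, by simpa using hf, hr, hc, Or.inl ⟨hrl, hcl⟩⟩
  · right
    exact ⟨hrW, hcW, by simpa using hf, hr, hc, Or.inr ⟨hu, hrl, hcl⟩⟩

lemma edge_of_flip_xc {b : TE h → TE h → Bool} {Wr Wc : Finset (TE h)}
    {u : Nd h} (hu : 0 < u.d) {x c : TE h} (hx : SUnder x u) (hxW : x ∉ Wr)
    (hc : c.nd = u) (hcW : c ∉ Wc) (hf : flip b x c) : EE b Wr Wc u x c := by
  simp only [flip, val_under_left hx hc] at hf
  exact Or.inl ⟨hxW, hcW, by simpa using hf, Or.inr ⟨hu, Or.inr (Or.inl ⟨hx, hc⟩)⟩⟩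

lemma edge_of_flip_ry {b : TE h → TE h → Bool} {Wr Wc : Finset (TE h)}
    {u : Nd h} (hu : 0 < u.d) {r y : TE h} (hr : r.nd = u) (hrW : r ∉ Wr)
    (hy : SUnder y u) (hyW : y ∉ Wc) (hf : flip b r y) : EE b Wr Wc u r y := by
  simp only [flip, val_under_right hr hy] at hf
  exact Or.inl ⟨hrW, hyW, by simpa using hf, Or.inr ⟨hu, Or.inl ⟨hr, hy⟩⟩⟩

/-- Existence of an element in a block avoiding a small set. -/
lemma exists_block (u : Nd h) (l : Lab) (A : Finset (TE h)) (hA : A.card < M u.d) :
    ∃ e : TE h, e.nd = u ∧ e.lab = l ∧ e ∉ A := by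
  by_contra hcon
  push_neg at hcon
  have hinj : Function.Injective (fun j : Fin (M u.d) => (⟨u, l, j⟩ : TE h)) := by
    intro j j' hj
    simpa using hj
  have : (Finset.univ.image (fun j : Fin (M u.d) => (⟨u, l, j⟩ : TE h))) ⊆ A := by
    intro e he
    simp only [Finset.mem_image, Finset.mem_univ, true_and] at he
    obtain ⟨j, rfl⟩ := he
    exact hcon _ rfl rfl
  have h2 := Finset.card_le_card this
  rw [Finset.card_image_of_injective _ hinj] at h2
  simp at h2
  omega

/-- Filters with exclusive predicates. -/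
lemma card_filter_two (S : Finset (TE h)) (P Q T : TE h → Prop) (h1 : ∀ e, P e → T e)
    (h2 : ∀ e, Q e → T e) (h3 : ∀ e, P e → Q e → False) :
    (S.filter P).card + (S.filter Q).card ≤ (S.filter T).card := by
  rw [← Finset.card_union_of_disjoint]
  · apply Finset.card_le_card
    intro e he
    simp only [Finset.mem_union, Finset.mem_filter] at he ⊢
    rcases he with ⟨a, b⟩ | ⟨a, b⟩
    · exact ⟨a, h1 _ b⟩
    · exact ⟨a, h2 _ b⟩
  · rw [Finset.disjoint_left]
    intro e he he'
    simp only [Finset.mem_filter] at he he'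
    exact h3 e he.2 he'.2

/-- The main induction on covers. -/
theorem cover_claim {b : TE h → TE h → Bool} {Wr Wc : Finset (TE h)} (hN : NoP b Wr Wc) :
    ∀ (d : ℕ) (v : Nd h), v.d = d → ∀ CR CC : Finset (TE h), Covers (EE b Wr Wc v) CR CC →
      2 ^ d ≤ CR.card + CC.card + badN Wr Wc v := by
  intro d
  induction d with
  | zero =>
    intro v hv CR CC hC
    have hM : 0 < M v.d := M_pos _
    set x : TE h := ⟨v, .a, ⟨0, hM⟩⟩ with hx
    set y : TE h := ⟨v, .m, ⟨0, hM⟩⟩ with hy
    have hxn : x.nd = v := rfl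
    have hyn : y.nd = v := rfl
    simp only [pow_zero]
    by_cases hxW : x ∈ Wr
    · have : 0 < (Wr.filter (fun e => Under e v)).card :=
        Finset.card_pos.mpr ⟨x, Finset.mem_filter.mpr ⟨hxW, under_of_nd hxn⟩⟩
      simp only [badN]; omega
    by_cases hyW : y ∈ Wc
    · have : 0 < (Wc.filter (fun e => Under e v)).card :=
        Finset.card_pos.mpr ⟨y, Finset.mem_filter.mpr ⟨hyW, under_of_nd hyn⟩⟩
      simp only [badN]; omega
    have hE : EE b Wr Wc v x y := by
      cases hb : b x y
      · exact Or.inr ⟨hxW, hyW, hb, hxn, hyn, Or.inl ⟨rfl, rfl⟩⟩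
      · exact Or.inl ⟨hxW, hyW, hb, Or.inl ⟨hv, hxn, hyn, rfl, rfl⟩⟩
    rcases hC x y hE with g | g
    · have : 0 < CR.card := Finset.card_pos.mpr ⟨x, g⟩
      omega
    · have : 0 < CC.card := Finset.card_pos.mpr ⟨y, g⟩
      omega
  | succ d ih =>
    intro u hud CR CC hC
    by_contra hcon
    push_neg at hcon
    have hu : 0 < u.d := by omega
    -- block elements
    have hMu : 2 ^ (d + 1) ≤ M u.d := by
      simp only [M]
      rw [if_neg (by omega), hud]
      omega
    have hbadR : (CR ∪ Wr.filter (fun e => Under e u)).card < M u.d := by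
      have := Finset.card_union_le CR (Wr.filter (fun e => Under e u))
      simp only [badN] at hcon
      omega
    have hbadC : (CC ∪ Wc.filter (fun e => Under e u)).card < M u.d := by
      have := Finset.card_union_le CC (Wc.filter (fun e => Under e u))
      simp only [badN] at hcon
      omega
    have pickR : ∀ l : Lab, ∃ e : TE h, e.nd = u ∧ e.lab = l ∧ e ∉ CR ∧ e ∉ Wr := by
      intro l
      obtain ⟨e, h1, h2, h3⟩ := exists_block u l _ hbadR
      simp only [Finset.mem_union, Finset.mem_filter, not_or, not_and] at h3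
      exact ⟨e, h1, h2, h3.1, fun g => h3.2 g (under_of_nd h1)⟩
    have pickC : ∀ l : Lab, ∃ e : TE h, e.nd = u ∧ e.lab = l ∧ e ∉ CC ∧ e ∉ Wc := by
      intro l
      obtain ⟨e, h1, h2, h3⟩ := exists_block u l _ hbadC
      simp only [Finset.mem_union, Finset.mem_filter, not_or, not_and] at h3
      exact ⟨e, h1, h2, h3.1, fun g => h3.2 g (under_of_nd h1)⟩
    -- all child edges are covered
    have key : ∀ (isO right : Bool) (x y : TE h), Ek b Wr Wc u hu isO right x y →
        x ∈ CR ∨ y ∈ CC := by
      intro isO right x y he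
      obtain ⟨r, r1, r2, r3, r4⟩ := pickR (rlab isO right)
      obtain ⟨c, c1, c2, c3, c4⟩ := pickC (clab isO right)
      obtain ⟨hx, hy⟩ := Ek_under he
      have sx := child_under hx
      have sy := child_under hy
      obtain ⟨hxW, hyW⟩ := Ek_good he
      rcases triple hN he r1 r2 r4 c1 c2 c4 with g | g | g
      · rcases hC _ _ (edge_of_flip_rc hu r1 r2 r4 c1 c2 c4 g) with g' | g'
        · exact absurd g' r3
        · exact absurd g' c3
      · rcases hC _ _ (edge_of_flip_xc hu sx hxW c1 c4 g) with g' | g'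
        · exact Or.inl g'
        · exact absurd g' c3
      · rcases hC _ _ (edge_of_flip_ry hu r1 r4 sy hyW g) with g' | g'
        · exact absurd g' r3
        · exact Or.inr g'
    have keyE : ∀ (right : Bool) (x y : TE h), EE b Wr Wc (child u hu right) x y →
        x ∈ CR ∨ y ∈ CC := by
      intro right x y he
      rcases he with g | g
      · exact key false right x y (by simpa [Ek] using g)
      · exact key true right x y (by simpa [Ek] using g)
    have ihc : ∀ right : Bool, 2 ^ d ≤ (CR.filter (fun e => Under e (child u hu right))).card +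
        (CC.filter (fun e => Under e (child u hu right))).card +
        badN Wr Wc (child u hu right) := by
      intro right
      apply ih (child u hu right) (by rw [child_d]; omega)
      intro x y he
      obtain ⟨g1, g2⟩ := E_under he
      rcases keyE right x y he with g | g
      · exact Or.inl (Finset.mem_filter.mpr ⟨g, g1⟩)
      · exact Or.inr (Finset.mem_filter.mpr ⟨g, g2⟩)
    have h0 := ihc false
    have h1 := ihc true
    have hT : ∀ (S : Finset (TE h)), (S.filter (fun e => Under e (child u hu false))).card +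
        (S.filter (fun e => Under e (child u hu true))).card ≤
        (S.filter (fun e => Under e u)).card := by
      intro S
      exact card_filter_two S _ _ _ (fun e he => (child_under he).1)
        (fun e he => (child_under he).1) (fun e h2 h3 => under_excl h2 h3)
    have hCR := card_filter_two CR (fun e => Under e (child u hu false))
      (fun e => Under e (child u hu true)) (fun _ => True) (fun _ _ => trivial)
      (fun _ _ => trivial) (fun e h2 h3 => under_excl h2 h3)
    have hCC := card_filter_two CC (fun e => Under e (child u hu false))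
      (fun e => Under e (child u hu true)) (fun _ => True) (fun _ _ => trivial)
      (fun _ _ => trivial) (fun e h2 h3 => under_excl h2 h3)
    simp only [Finset.filter_true] at hCR hCC
    have hWr := hT Wr
    have hWc := hT Wc
    simp only [badN] at h0 h1 hcon
    rw [pow_succ] at hcon
    omega

end Crest.Agent.Lib.S66
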