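import Crest.Agent.Lib.S66.Cascade

/-!
# S0066: the root step of the cascade
-/

namespace Crest.Agent.Lib.S66

open scoped Classical

variable {h : ℕ}

/-- Vertex cover number. -/
noncomputable def coverNum (E : TE h → TE h → Prop) : ℕ :=
  sInf {n | ∃ CR CC : Finset (TE h), Covers E CR CC ∧ CR.card + CC.card = n}

lemma coverNum_le {E : TE h → TE h → Prop} {CR CC : Finset (TE h)} (hC : Covers E CR CC) :
    coverNum E ≤ CR.card + CC.card :=
  Nat.sInf_le ⟨CR, CC, hC, rfl⟩

lemma coverNum_exists (E : TE h → TE h → Prop) :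
    ∃ CR CC : Finset (TE h), Covers E CR CC ∧ CR.card + CC.card = coverNum E := by
  have hne : {n | ∃ CR CC : Finset (TE h), Covers E CR CC ∧ CR.card + CC.card = n}.Nonempty :=
    ⟨_, Finset.univ, Finset.univ, fun x _ _ => Or.inl (Finset.mem_univ x), rfl⟩
  exact Nat.sInf_mem hne

lemma coverNum_or (E F : TE h → TE h → Prop) :
    coverNum (fun x y => E x y ∨ F x y) ≤ coverNum E + coverNum F := by
  obtain ⟨A1, A2, hA, hA'⟩ := coverNum_exists E
  obtain ⟨B1, B2, hB, hB'⟩ := coverNum_exists F
  have hC : Covers (fun x y => E x y ∨ F x y) (A1 ∪ B1) (A2 ∪ B2) := by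
    intro x y hxy
    simp only [Finset.mem_union]
    rcases hxy with g | g
    · rcases hA x y g with g' | g'
      · exact Or.inl (Or.inl g')
      · exact Or.inr (Or.inl g')
    · rcases hB x y g with g' | g'
      · exact Or.inl (Or.inr g')
      · exact Or.inr (Or.inr g')
  have h1 := coverNum_le hC
  have h2 := Finset.card_union_le A1 B1
  have h3 := Finset.card_union_le A2 B2
  omega

/-- Averaging over a square. -/
lemma avg {α β : Type*} (R' : Finset α) (C' : Finset β) (K m : ℕ) (hR : R'.card = K)
    (hC : C'.card = K) (hm : m ≤ K) (y : α → ℕ) (x : β → ℕ) (F : α → β → Prop)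
    (hF : ∀ r ∈ R', ∀ c ∈ C', F r c ∨ m ≤ y r + x c) :
    K * m ≤ ((R' ×ˢ C').filter (fun p => F p.1 p.2)).card + ∑ r ∈ R', y r + ∑ c ∈ C', x c := by
  rcases Nat.eq_zero_or_pos K with hK | hK
  · subst hK; simp
  · apply Nat.le_of_mul_le_mul_left _ hK
    have h1 : ∑ p ∈ R' ×ˢ C', m ≤
        ∑ p ∈ R' ×ˢ C', ((if F p.1 p.2 then m else 0) + y p.1 + x p.2) := by
      apply Finset.sum_le_sum
      intro p hp
      rw [Finset.mem_product] at hp
      rcases hF p.1 hp.1 p.2 hp.2 with g | g
      · simp [g]; omega
      · split_ifs <;> omega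
    have h2 : ∑ p ∈ R' ×ˢ C', m = K * (K * m) := by
      rw [Finset.sum_const, Finset.card_product, hR, hC, smul_eq_mul]; ring
    have h3 : ∑ p ∈ R' ×ˢ C', (if F p.1 p.2 then m else 0) =
        ((R' ×ˢ C').filter (fun p => F p.1 p.2)).card * m := by
      rw [← Finset.sum_filter, Finset.sum_const, smul_eq_mul]
    have h4 : ∑ p ∈ R' ×ˢ C', y p.1 = K * ∑ r ∈ R', y r := by
      rw [Finset.sum_product, Finset.mul_sum]
      apply Finset.sum_congr rfl
      intro r _
      simp only [Finset.sum_const, hC, smul_eq_mul]
    have h5 : ∑ p ∈ R' ×ˢ C', x p.2 = K * ∑ c ∈ C', x c := by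
      rw [Finset.sum_product]
      simp only [Finset.sum_const, hR, smul_eq_mul]
    rw [Finset.sum_add_distrib, Finset.sum_add_distrib, h2, h3, h4, h5] at h1
    have h6 : ((R' ×ˢ C').filter (fun p => F p.1 p.2)).card * m ≤
        K * ((R' ×ˢ C').filter (fun p => F p.1 p.2)).card := by
      rw [mul_comm]; exact Nat.mul_le_mul_right _ hm
    nlinarith

/-- The flips as a finset. -/
noncomputable def Zset (b : TE h → TE h → Bool) : Finset (TE h × TE h) :=
  Finset.univ.filter (fun p => flip b p.1 p.2)

/-- The region of flips used by a block pair. -/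
def Qp (u : Nd h) (hu : 0 < u.d) (isO right : Bool) (p : TE h × TE h) : Prop :=
  (p.1.nd = u ∧ p.1.lab = rlab isO right ∧ p.2.nd = u ∧ p.2.lab = clab isO right) ∨
  (p.1.nd = u ∧ p.1.lab = rlab isO right ∧ Under p.2 (child u hu right)) ∨
  (Under p.1 (child u hu right) ∧ p.2.nd = u ∧ p.2.lab = clab isO right)

/-- Regions of different block pairs are disjoint. -/
lemma Qp_disjoint {u : Nd h} {hu : 0 < u.d} {i r i' r' : Bool} (hne : (i, r) ≠ (i', r'))
    {p : TE h × TE h} (h1 : Qp u hu i r p) (h2 : Qp u hu i' r' p) : False := by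
  have n1 : ∀ s, p.1.nd = u → (Under p.1 (child u hu s) ↔ False) := fun s g =>
    ⟨fun g' => not_under_child g g', False.elim⟩
  have n2 : ∀ s, p.2.nd = u → (Under p.2 (child u hu s) ↔ False) := fun s g =>
    ⟨fun g' => not_under_child g g', False.elim⟩
  have e1 : Under p.1 (child u hu false) → Under p.1 (child u hu true) → False := under_excl
  have e2 : Under p.2 (child u hu false) → Under p.2 (child u hu true) → False := under_excl
  unfold Qp at h1 h2
  cases i <;> cases r <;> cases i' <;> cases r' <;>
    first
    | exact hne rfl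
    | (simp only [rlab, clab, rZ, cZ, rO, cO, if_true, if_false, Bool.false_eq_true] at h1 h2
       rcases h1 with ⟨a1, a2, a3, a4⟩ | ⟨a1, a2, a3⟩ | ⟨a1, a2, a3⟩ <;>
       rcases h2 with ⟨b1, b2, b3, b4⟩ | ⟨b1, b2, b3⟩ | ⟨b1, b2, b3⟩ <;>
       first
       | (rw [a2] at b2; cases b2; done)
       | (rw [a4] at b4; cases b4; done)
       | (rw [a4] at b3; cases b3; done)
       | (rw [a3] at b4; cases b4; done)
       | (rw [a3] at b3; cases b3; done)
       | exact (n1 _ a1).mp b1
       | exact (n1 _ b1).mp a1
       | exact (n2 _ a3).mp b3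
       | exact (n2 _ b3).mp a3
       | exact (n2 _ b2).mp a3
       | exact (n2 _ a2).mp b3
       | exact e1 a1 b1
       | exact e1 b1 a1
       | exact e2 a3 b3
       | exact e2 b3 a3)

/-- The region bound for one block pair. -/
lemma pair_bound {b : TE h → TE h → Bool} {Wr Wc : Finset (TE h)} (hN : NoP b Wr Wc)
    {u : Nd h} (hu : 0 < u.d) (isO right : Bool) {K : ℕ}
    (hKr : K + Wr.card ≤ M u.d) (hKc : K + Wc.card ≤ M u.d) :
    K * min (coverNum (Ek b Wr Wc u hu isO right)) K ≤
      ((Zset b).filter (Qp u hu isO right)).card := by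
  classical
  set Ch := child u hu right with hCh
  -- block subsets
  have blk : ∀ (l : Lab) (W : Finset (TE h)), K + W.card ≤ M u.d →
      ∃ S : Finset (TE h), S.card = K ∧ ∀ e ∈ S, e.nd = u ∧ e.lab = l ∧ e ∉ W := by
    intro l W hW
    set B : Finset (TE h) := Finset.univ.filter (fun e => e.nd = u ∧ e.lab = l) with hB
    have hBc : M u.d ≤ B.card := by
      have hinj : Function.Injective (fun j : Fin (M u.d) => (⟨u, l, j⟩ : TE h)) := by
        intro j j' hj
        simpa using hj
      have hsub : (Finset.univ.image (fun j : Fin (M u.d) => (⟨u, l, j⟩ : TE h))) ⊆ B := by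
        intro e he
        simp only [Finset.mem_image, Finset.mem_univ, true_and] at he
        obtain ⟨j, rfl⟩ := he
        simp only [hB, Finset.mem_filter, Finset.mem_univ, true_and]
        exact ⟨rfl, rfl⟩
      have h2 := Finset.card_le_card hsub
      rw [Finset.card_image_of_injective _ hinj] at h2
      simpa using h2
    have hsd := Finset.le_card_sdiff W B
    have hK : K ≤ (B \ W).card := by omega
    obtain ⟨S, hS, hSc⟩ := Finset.exists_subset_card_eq hK
    refine ⟨S, hSc, ?_⟩
    intro e he
    have := hS he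
    simp only [Finset.mem_sdiff, hB, Finset.mem_filter, Finset.mem_univ, true_and] at this
    exact ⟨this.1.1, this.1.2, this.2⟩
  obtain ⟨R', hR'c, hR'⟩ := blk (rlab isO right) Wr hKr
  obtain ⟨C', hC'c, hC'⟩ := blk (clab isO right) Wc hKc
  -- the fibres
  set Z := Zset b with hZ
  let Ypart : Finset (TE h × TE h) := Z.filter (fun p => Under p.2 Ch)
  let Xpart : Finset (TE h × TE h) := Z.filter (fun p => Under p.1 Ch)
  let y : TE h → ℕ := fun r => (Ypart.filter (fun p => p.1 = r)).card
  let x : TE h → ℕ := fun c => (Xpart.filter (fun p => p.2 = c)).card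
  have hm : min (coverNum (Ek b Wr Wc u hu isO right)) K ≤ K := min_le_right _ _
  have hcov : ∀ r ∈ R', ∀ c ∈ C', flip b r c ∨
      min (coverNum (Ek b Wr Wc u hu isO right)) K ≤ y r + x c := by
    intro r hr c hc
    by_cases hf : flip b r c
    · exact Or.inl hf
    · right
      obtain ⟨r1, r2, r3⟩ := hR' r hr
      obtain ⟨c1, c2, c3⟩ := hC' c hc
      have hC : Covers (Ek b Wr Wc u hu isO right)
          ((Xpart.filter (fun p => p.2 = c)).image Prod.fst)
          ((Ypart.filter (fun p => p.1 = r)).image Prod.snd) := by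
        intro x' y' he
        obtain ⟨hx, hy⟩ := Ek_under he
        rcases triple hN he r1 r2 r3 c1 c2 c3 with g | g | g
        · exact absurd g hf
        · left
          refine Finset.mem_image.mpr ⟨(x', c), ?_, rfl⟩
          simp only [Xpart, hZ, Zset, Finset.mem_filter, Finset.mem_univ, true_and]
          exact ⟨⟨g, hx⟩, trivial⟩
        · right
          refine Finset.mem_image.mpr ⟨(r, y'), ?_, rfl⟩
          simp only [Ypart, hZ, Zset, Finset.mem_filter, Finset.mem_univ, true_and]
          exact ⟨⟨g, hy⟩, trivial⟩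
      have h1 := coverNum_le hC
      have h2 := Finset.card_image_le (s := Xpart.filter (fun p => p.2 = c)) (f := Prod.fst)
      have h3 := Finset.card_image_le (s := Ypart.filter (fun p => p.1 = r)) (f := Prod.snd)
      have h4 := min_le_left (coverNum (Ek b Wr Wc u hu isO right)) K
      simp only [y, x]
      omega
  have hav := avg R' C' K _ hR'c hC'c hm y x (fun r c => flip b r c) hcov
  refine hav.trans ?_
  -- the three parts
  have hsumy : ∑ r ∈ R', y r = (Ypart.filter (fun p => p.1 ∈ R')).card := by
    simp only [y]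
    exact Finset.sum_card_fiberwise_eq_card_filter Ypart R' Prod.fst
  have hsumx : ∑ c ∈ C', x c = (Xpart.filter (fun p => p.2 ∈ C')).card := by
    simp only [x]
    exact Finset.sum_card_fiberwise_eq_card_filter Xpart C' Prod.snd
  rw [hsumy, hsumx]
  set A := (R' ×ˢ C').filter (fun p => flip b p.1 p.2) with hA
  set B := Ypart.filter (fun p => p.1 ∈ R') with hB
  set D := Xpart.filter (fun p => p.2 ∈ C') with hD
  have hAB : Disjoint A B := by
    rw [Finset.disjoint_left]
    intro p hpA hpB
    simp only [hA, Finset.mem_filter, Finset.mem_product] at hpA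
    simp only [hB, Ypart, Finset.mem_filter] at hpB
    exact not_under_child (hC' _ hpA.1.2).1 hpB.1.2
  have hABD : Disjoint (A ∪ B) D := by
    rw [Finset.disjoint_left]
    intro p hp hpD
    simp only [hD, Xpart, Finset.mem_filter] at hpD
    rw [Finset.mem_union] at hp
    rcases hp with hp | hp
    · simp only [hA, Finset.mem_filter, Finset.mem_product] at hp
      exact not_under_child (hR' _ hp.1.1).1 hpD.1.2
    · simp only [hB, Finset.mem_filter] at hp
      exact not_under_child (hR' _ hp.2).1 hpD.1.2
  rw [← Finset.card_union_of_disjoint hAB, ← Finset.card_union_of_disjoint hABD]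
  apply Finset.card_le_card
  intro p hp
  simp only [Finset.mem_filter, hZ]
  rw [Finset.mem_union, Finset.mem_union] at hp
  rcases hp with (hp | hp) | hp
  · simp only [hA, Finset.mem_filter, Finset.mem_product] at hp
    refine ⟨?_, Or.inl ?_⟩
    · simp only [Zset, Finset.mem_filter, Finset.mem_univ, true_and]; exact hp.2
    · exact ⟨(hR' _ hp.1.1).1, (hR' _ hp.1.1).2.1, (hC' _ hp.1.2).1, (hC' _ hp.1.2).2.1⟩
  · simp only [hB, Ypart, Finset.mem_filter] at hp
    refine ⟨hp.1.1, Or.inr (Or.inl ?_)⟩
    exact ⟨(hR' _ hp.2).1, (hR' _ hp.2).2.1, hp.1.2⟩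
  · simp only [hD, Xpart, Finset.mem_filter] at hp
    refine ⟨hp.1.1, Or.inr (Or.inr ?_)⟩
    exact ⟨hp.1.2, (hC' _ hp.2).1, (hC' _ hp.2).2.1⟩

/-- The root of the tree. -/
def rootNd (h : ℕ) : Nd h := mkNd h 0 le_rfl (by simp)

/-- Cascade: a `NoP` matrix with few bad elements has many flips. -/
theorem cascade (hh : 1 ≤ h) {b : TE h → TE h → Bool} {Wr Wc : Finset (TE h)}
    (hN : NoP b Wr Wc) (hW : 2 * (Wr.card + Wc.card) < 2 ^ h) :
    (2 ^ h) ^ 2 ≤ (Zset b).card := by
  set u := rootNd h with hu'
  have hud : u.d = h := rfl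
  have hu : 0 < u.d := by omega
  set S := 2 ^ h with hS
  have hSpos : 0 < S := by positivity
  set K := 2 * S with hK
  have hM : M u.d = 3 * S := by
    simp only [M]; rw [if_neg (by omega), hud]
  have hKr : K + Wr.card ≤ M u.d := by rw [hM]; omega
  have hKc : K + Wc.card ≤ M u.d := by rw [hM]; omega
  -- coverage for children
  have hchild : ∀ right : Bool, 2 ^ (h - 1) ≤ coverNum (Ek b Wr Wc u hu false right) +
      coverNum (Ek b Wr Wc u hu true right) + badN Wr Wc (child u hu right) := by
    intro right
    obtain ⟨CR, CC, hC, hcard⟩ := coverNum_exists (EE b Wr Wc (child u hu right))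
    have h1 := cover_claim hN (h - 1) (child u hu right) (by rw [child_d, hud]) CR CC hC
    rw [hcard] at h1
    have h2 := coverNum_or (Ek b Wr Wc u hu false right) (Ek b Wr Wc u hu true right)
    have h3 : (fun x y => Ek b Wr Wc u hu false right x y ∨ Ek b Wr Wc u hu true right x y) =
        EE b Wr Wc (child u hu right) := by
      funext x y
      simp [Ek, EE]
    rw [h3] at h2
    omega
  have hbad : badN Wr Wc (child u hu false) + badN Wr Wc (child u hu true) ≤
      Wr.card + Wc.card := by
    have h1 := card_filter_two Wr (fun e => Under e (child u hu false))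
      (fun e => Under e (child u hu true)) (fun _ => True) (fun _ _ => trivial)
      (fun _ _ => trivial) (fun e h2 h3 => under_excl h2 h3)
    have h2 := card_filter_two Wc (fun e => Under e (child u hu false))
      (fun e => Under e (child u hu true)) (fun _ => True) (fun _ _ => trivial)
      (fun _ _ => trivial) (fun e h2 h3 => under_excl h2 h3)
    simp only [Finset.filter_true] at h1 h2
    simp only [badN]
    omega
  have h0 := hchild false
  have h1 := hchild true
  have hSs : S = 2 ^ (h - 1) + 2 ^ (h - 1) := by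
    obtain ⟨k, rfl⟩ : ∃ k, h = k + 1 := ⟨h - 1, by omega⟩
    simp only [hS, Nat.add_sub_cancel, pow_succ]; ring
  -- region bounds
  have p00 := pair_bound hN hu false false hKr hKc
  have p10 := pair_bound hN hu true false hKr hKc
  have p01 := pair_bound hN hu false true hKr hKc
  have p11 := pair_bound hN hu true true hKr hKc
  -- total
  have hdisj : ((Zset b).filter (Qp u hu false false)).card +
      ((Zset b).filter (Qp u hu true false)).card +
      ((Zset b).filter (Qp u hu false true)).card +
      ((Zset b).filter (Qp u hu true true)).card ≤ (Zset b).card := by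
    have d1 : Disjoint ((Zset b).filter (Qp u hu false false))
        ((Zset b).filter (Qp u hu true false)) := by
      rw [Finset.disjoint_left]
      intro p a a'
      exact Qp_disjoint (by simp) (Finset.mem_filter.mp a).2 (Finset.mem_filter.mp a').2
    have d2 : Disjoint ((Zset b).filter (Qp u hu false false) ∪
        (Zset b).filter (Qp u hu true false)) ((Zset b).filter (Qp u hu false true)) := by
      rw [Finset.disjoint_left]
      intro p a a'
      rw [Finset.mem_union] at a
      rcases a with a | a
      · exact Qp_disjoint (by simp) (Finset.mem_filter.mp a).2 (Finset.mem_filter.mp a').2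
      · exact Qp_disjoint (by simp) (Finset.mem_filter.mp a).2 (Finset.mem_filter.mp a').2
    have d3 : Disjoint ((Zset b).filter (Qp u hu false false) ∪
        (Zset b).filter (Qp u hu true false) ∪ (Zset b).filter (Qp u hu false true))
        ((Zset b).filter (Qp u hu true true)) := by
      rw [Finset.disjoint_left]
      intro p a a'
      rw [Finset.mem_union, Finset.mem_union] at a
      rcases a with (a | a) | a
      · exact Qp_disjoint (by simp) (Finset.mem_filter.mp a).2 (Finset.mem_filter.mp a').2
      · exact Qp_disjoint (by simp) (Finset.mem_filter.mp a).2 (Finset.mem_filter.mp a').2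
      · exact Qp_disjoint (by simp) (Finset.mem_filter.mp a).2 (Finset.mem_filter.mp a').2
    rw [← Finset.card_union_of_disjoint d1, ← Finset.card_union_of_disjoint d2,
      ← Finset.card_union_of_disjoint d3]
    apply Finset.card_le_card
    intro p hp
    simp only [Finset.mem_union, Finset.mem_filter] at hp
    rcases hp with ((hp | hp) | hp) | hp <;> exact hp.1
  -- arithmetic with minima
  set m00 := coverNum (Ek b Wr Wc u hu false false)
  set m10 := coverNum (Ek b Wr Wc u hu true false)
  set m01 := coverNum (Ek b Wr Wc u hu false true)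
  set m11 := coverNum (Ek b Wr Wc u hu true true)
  have hsum : S ≤ m00 + m10 + m01 + m11 + (Wr.card + Wc.card) := by omega
  by_cases hbig : 2 * S ≤ m00 ∨ 2 * S ≤ m10 ∨ 2 * S ≤ m01 ∨ 2 * S ≤ m11
  · have hbound : K * K ≤ (Zset b).card := by
      rcases hbig with g | g | g | g
      · rw [min_eq_right g] at p00; exact p00.trans (by omega)
      · rw [min_eq_right g] at p10; exact p10.trans (by omega)
      · rw [min_eq_right g] at p01; exact p01.trans (by omega)
      · rw [min_eq_right g] at p11; exact p11.trans (by omega)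
    nlinarith
  · push_neg at hbig
    obtain ⟨g1, g2, g3, g4⟩ := hbig
    rw [min_eq_left g1.le] at p00
    rw [min_eq_left g2.le] at p10
    rw [min_eq_left g3.le] at p01
    rw [min_eq_left g4.le] at p11
    have h2 : K * (m00 + m10 + m01 + m11) ≤ (Zset b).card := by
      have h7 : K * (m00 + m10 + m01 + m11) = K * m00 + K * m10 + K * m01 + K * m11 := by ring
      rw [h7]
      exact le_trans (add_le_add (add_le_add (add_le_add p00 p10) p01) p11) hdisj
    have h3 : S ≤ 2 * (m00 + m10 + m01 + m11) := by omega
    have h4 : S * S ≤ S * (2 * (m00 + m10 + m01 + m11)) := Nat.mul_le_mul_left _ h3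
    have h5 : S * (2 * (m00 + m10 + m01 + m11)) = K * (m00 + m10 + m01 + m11) := by
      rw [hK]; ring
    rw [pow_two]
    calc S * S ≤ K * (m00 + m10 + m01 + m11) := by rw [← h5]; exact h4
      _ ≤ (Zset b).card := h2

end Crest.Agent.Lib.S66
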