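import Mathlib

/-!
# S0066: a transversal avoiding a small set of flips
-/

namespace Crest.Agent.Lib.S66

open scoped Classical

/-- Greedy transversal: if every class has at least `N` elements, the row classes are disjoint
and there are fewer than `N * N` flips, a transversal avoids all flips. -/
theorem select {α β : Type*} {p q : ℕ} (𝓡 : Fin p → Finset α) (𝓒 : Fin q → Finset β)
    (Z : Finset (α × β)) (N : ℕ) (hR : ∀ i, N ≤ (𝓡 i).card) (hC : ∀ j, N ≤ (𝓒 j).card)
    (hdisj : ∀ i i', i ≠ i' → Disjoint (𝓡 i) (𝓡 i')) (hZ : Z.card < N * N) :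
    ∃ (ρ : Fin p → α) (γ : Fin q → β), (∀ i, ρ i ∈ 𝓡 i) ∧ (∀ j, γ j ∈ 𝓒 j) ∧
      ∀ i j, (ρ i, γ j) ∉ Z := by
  have hN : 0 < N := by
    rcases Nat.eq_zero_or_pos N with h | h
    · subst h; simp at hZ
    · exact h
  let cnt : α → ℕ := fun a => (Z.filter (fun x => x.1 = a)).card
  -- choose the rows
  have hpick : ∀ i, ∃ a ∈ 𝓡 i, N * cnt a ≤ (Z.filter (fun x => x.1 ∈ 𝓡 i)).card := by
    intro i
    have hne : (𝓡 i).Nonempty := Finset.card_pos.mp (lt_of_lt_of_le hN (hR i))
    obtain ⟨a, ha, hmin⟩ := Finset.exists_min_image (𝓡 i) cnt hne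
    refine ⟨a, ha, ?_⟩
    have h1 : ∑ b ∈ 𝓡 i, cnt b = (Z.filter (fun x => x.1 ∈ 𝓡 i)).card :=
      Finset.sum_card_fiberwise_eq_card_filter Z (𝓡 i) Prod.fst
    rw [← h1]
    calc N * cnt a ≤ (𝓡 i).card * cnt a := Nat.mul_le_mul_right _ (hR i)
      _ = ∑ _b ∈ 𝓡 i, cnt a := by rw [Finset.sum_const, smul_eq_mul]
      _ ≤ ∑ b ∈ 𝓡 i, cnt b := Finset.sum_le_sum hmin
  choose ρ hρ1 hρ2 using hpick
  -- the total count of the chosen rows
  have htot : N * ∑ i, cnt (ρ i) ≤ Z.card := by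
    rw [Finset.mul_sum]
    calc ∑ i, N * cnt (ρ i) ≤ ∑ i, (Z.filter (fun x => x.1 ∈ 𝓡 i)).card :=
          Finset.sum_le_sum (fun i _ => hρ2 i)
      _ = (Finset.univ.biUnion (fun i => Z.filter (fun x => x.1 ∈ 𝓡 i))).card := by
          rw [Finset.card_biUnion]
          intro i _ i' _ hne
          rw [Function.onFun, Finset.disjoint_left]
          intro x hx hx'
          simp only [Finset.mem_filter] at hx hx'
          exact (Finset.disjoint_left.mp (hdisj i i' hne)) hx.2 hx'.2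
      _ ≤ Z.card := by
          apply Finset.card_le_card
          intro x hx
          simp only [Finset.mem_biUnion, Finset.mem_filter, Finset.mem_univ, true_and] at hx
          obtain ⟨_, h1, _⟩ := hx
          exact h1
  have hlt : ∑ i, cnt (ρ i) < N := by
    by_contra hcon
    push_neg at hcon
    have := Nat.mul_le_mul_left N hcon
    omega
  -- the flipped columns
  let Bad : Finset β := Finset.univ.biUnion
    (fun i => (Z.filter (fun x => x.1 = ρ i)).image Prod.snd)
  have hBad : Bad.card < N := by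
    refine lt_of_le_of_lt ?_ hlt
    refine Finset.card_biUnion_le.trans ?_
    exact Finset.sum_le_sum (fun i _ => Finset.card_image_le)
  have hpickc : ∀ j, ∃ c ∈ 𝓒 j, c ∉ Bad := by
    intro j
    exact Finset.exists_mem_notMem_of_card_lt_card (lt_of_lt_of_le hBad (hC j))
  choose γ hγ1 hγ2 using hpickc
  refine ⟨ρ, γ, hρ1, hγ1, ?_⟩
  intro i j hij
  apply hγ2 j
  simp only [Bad, Finset.mem_biUnion, Finset.mem_univ, true_and]
  refine ⟨i, Finset.mem_image.mpr ⟨(ρ i, γ j), ?_, rfl⟩⟩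
  exact Finset.mem_filter.mpr ⟨hij, rfl⟩

end Crest.Agent.Lib.S66
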