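import Crest.Agent.Lib.S66.Matrix
import Crest.Agent.Lib.S66.Root
import Crest.Agent.Lib.S66.Select

/-!
# S0066: completing a designated tuple to a copy of the pattern; the far-from-free theorem
-/

namespace Crest.Agent.Lib.S66

open scoped Classical

variable {h dr dc : ℕ}

/-- Rows as a sum. -/
def rowEquiv (h dr : ℕ) : Row h dr ≃ (Frame h × Bool × Fin (5 * 2 ^ h)) ⊕ (TE h ⊕ Fin dr) where
  toFun
    | .F φ b j => .inl (φ, b, j)
    | .T e => .inr (.inl e)
    | .D k => .inr (.inr k)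
  invFun
    | .inl (φ, b, j) => .F φ b j
    | .inr (.inl e) => .T e
    | .inr (.inr k) => .D k
  left_inv r := by cases r <;> rfl
  right_inv x := by rcases x with ⟨φ, b, j⟩ | e | k <;> rfl

/-- Columns as a sum. -/
def colEquiv (h dc : ℕ) : Col h dc ≃
    Fin (5 * 2 ^ h) ⊕ ((Frame h × Bool × Fin (5 * 2 ^ h)) ⊕ (TE h ⊕ Fin dc)) where
  toFun
    | .N j => .inl j
    | .G φ b j => .inr (.inl (φ, b, j))
    | .T e => .inr (.inr (.inl e))
    | .D k => .inr (.inr (.inr k))
  invFun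
    | .inl j => .N j
    | .inr (.inl (φ, b, j)) => .G φ b j
    | .inr (.inr (.inl e)) => .T e
    | .inr (.inr (.inr k)) => .D k
  left_inv r := by cases r <;> rfl
  right_inv x := by rcases x with j | ⟨φ, b, j⟩ | e | k <;> rfl

noncomputable instance instFintypeRow : Fintype (Row h dr) :=
  Fintype.ofEquiv _ (rowEquiv h dr).symm

noncomputable instance instFintypeCol : Fintype (Col h dc) :=
  Fintype.ofEquiv _ (colEquiv h dc).symm

/-- Not a tree row. -/
def Row.notT : Row h dr → Prop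
  | .T _ => False
  | _ => True

/-- Not a tree column. -/
def Col.notT : Col h dc → Prop
  | .T _ => False
  | _ => True

/-- Columns outside the tree flipped at a tree row. -/
noncomputable def badC (B : Row h dr → Col h dc → Bool) (r : TE h) : Finset (Col h dc) :=
  Finset.univ.filter (fun c => Col.notT c ∧ B (.T r) c ≠ Am (Row.T r : Row h dr) c)

/-- Rows outside the tree flipped at a tree column. -/
noncomputable def badR (B : Row h dr → Col h dc → Bool) (c : TE h) : Finset (Row h dr) :=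
  Finset.univ.filter (fun r => Row.notT r ∧ B r (.T c) ≠ Am r (Col.T c : Col h dc))

/-- Bad tree rows. -/
noncomputable def Wr (B : Row h dr → Col h dc → Bool) : Finset (TE h) :=
  Finset.univ.filter (fun r => 2 * 2 ^ h ≤ (badC B r).card)

/-- Bad tree columns. -/
noncomputable def Wc (B : Row h dr → Col h dc → Bool) : Finset (TE h) :=
  Finset.univ.filter (fun c => 2 * 2 ^ h ≤ (badR B c).card)

/-- All flips. -/
noncomputable def flips (B : Row h dr → Col h dc → Bool) : Finset (Row h dr × Col h dc) :=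
  Finset.univ.filter (fun p => B p.1 p.2 ≠ Am p.1 p.2)

lemma Row.T_inj {e e' : TE h} (he : (Row.T e : Row h dr) = Row.T e') : e = e' := by
  cases he; rfl

lemma Col.T_inj {e e' : TE h} (he : (Col.T e : Col h dc) = Col.T e') : e = e' := by
  cases he; rfl

/-- The bad elements are few. -/
lemma bad_count (B : Row h dr → Col h dc → Bool) :
    2 * 2 ^ h * ((Wr B).card + (Wc B).card) ≤ (flips B).card := by
  set S := 2 * 2 ^ h with hS
  let U1 : Finset (Row h dr × Col h dc) :=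
    (Wr B).biUnion (fun e => (badC B e).image (fun c => (Row.T e, c)))
  let U2 : Finset (Row h dr × Col h dc) :=
    (Wc B).biUnion (fun e => (badR B e).image (fun r => (r, Col.T e)))
  have h1 : S * (Wr B).card ≤ U1.card := by
    simp only [U1]
    rw [Finset.card_biUnion]
    · rw [mul_comm, ← smul_eq_mul]
      apply Finset.card_nsmul_le_sum
      intro e he
      rw [Finset.card_image_of_injective _ (fun a b hab => by simpa using hab)]
      exact (Finset.mem_filter.mp he).2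
    · intro e _ e' _ hne
      rw [Function.onFun, Finset.disjoint_left]
      intro p hp hp'
      obtain ⟨c, _, rfl⟩ := Finset.mem_image.mp hp
      obtain ⟨c', _, hc'⟩ := Finset.mem_image.mp hp'
      simp only [Prod.mk.injEq] at hc'
      exact hne (Row.T_inj hc'.1).symm
  have h2 : S * (Wc B).card ≤ U2.card := by
    simp only [U2]
    rw [Finset.card_biUnion]
    · rw [mul_comm, ← smul_eq_mul]
      apply Finset.card_nsmul_le_sum
      intro e he
      rw [Finset.card_image_of_injective _ (fun a b hab => by simpa using hab)]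
      exact (Finset.mem_filter.mp he).2
    · intro e _ e' _ hne
      rw [Function.onFun, Finset.disjoint_left]
      intro p hp hp'
      obtain ⟨c, _, rfl⟩ := Finset.mem_image.mp hp
      obtain ⟨c', _, hc'⟩ := Finset.mem_image.mp hp'
      simp only [Prod.mk.injEq] at hc'
      exact hne (Col.T_inj hc'.2).symm
  have hd : Disjoint U1 U2 := by
    rw [Finset.disjoint_left]
    intro p hp hp'
    simp only [U1, U2, Finset.mem_biUnion, Finset.mem_image] at hp hp'
    obtain ⟨e, _, c, hc, rfl⟩ := hp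
    obtain ⟨e', _, r, hr, hr'⟩ := hp'
    simp only [Prod.mk.injEq] at hr'
    obtain ⟨rfl, rfl⟩ := hr'
    simp only [badC, Finset.mem_filter] at hc
    exact hc.2.1
  have hsub : U1 ∪ U2 ⊆ flips B := by
    intro p hp
    rw [Finset.mem_union] at hp
    simp only [flips, Finset.mem_filter, Finset.mem_univ, true_and]
    rcases hp with hp | hp
    · simp only [U1, Finset.mem_biUnion, Finset.mem_image] at hp
      obtain ⟨e, _, c, hc, rfl⟩ := hp
      exact (Finset.mem_filter.mp hc).2.2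
    · simp only [U2, Finset.mem_biUnion, Finset.mem_image] at hp
      obtain ⟨e, _, c, hc, rfl⟩ := hp
      exact (Finset.mem_filter.mp hc).2.2
  have h3 := Finset.card_le_card hsub
  rw [Finset.card_union_of_disjoint hd] at h3
  rw [mul_add]
  omega

/-- Arithmetic for the dummy blocks. -/
lemma block_lt {S k j : ℕ} (hk : k < 62) (hj : j < 5 * S) : k * (5 * S) + j < 310 * S := by
  have h1 : (k + 1) * (5 * S) ≤ 62 * (5 * S) := Nat.mul_le_mul_right _ (by omega)
  have h2 : (k + 1) * (5 * S) = k * (5 * S) + 5 * S := by ring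
  omega

lemma block_lt' {S k j : ℕ} (hk : k < 61) (hj : j < 5 * S) : k * (5 * S) + j < 305 * S := by
  have h1 : (k + 1) * (5 * S) ≤ 61 * (5 * S) := Nat.mul_le_mul_right _ (by omega)
  have h2 : (k + 1) * (5 * S) = k * (5 * S) + 5 * S := by ring
  omega

lemma block_mono {S k k' j j' : ℕ} (hk : k < k') (hj : j < 5 * S) :
    k * (5 * S) + j < k' * (5 * S) + j' := by
  have h1 : (k + 1) * (5 * S) ≤ k' * (5 * S) := Nat.mul_le_mul_right _ hk
  have h2 : (k + 1) * (5 * S) = k * (5 * S) + 5 * S := by ring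
  omega

/-- Row classes. -/
def rowC (hdr : 310 * 2 ^ h ≤ dr) (φ : Frame h) : ℕ → Fin (5 * 2 ^ h) → Row h dr
  | 0, j => .F φ false j
  | 1, j => .F φ true j
  | k + 2, j =>
    if hk : k < 62 then .D ⟨k * (5 * 2 ^ h) + j.val, lt_of_lt_of_le (block_lt hk j.isLt) hdr⟩
    else .F φ false j

/-- Column classes. -/
def colC (hdc : 305 * 2 ^ h ≤ dc) (φ : Frame h) : ℕ → Fin (5 * 2 ^ h) → Col h dc
  | 0, j => .N j
  | 1, j => .G φ false j
  | 2, j => .G φ true j
  | k + 3, j =>
    if hk : k < 61 then .D ⟨k * (5 * 2 ^ h) + j.val, lt_of_lt_of_le (block_lt' hk j.isLt) hdc⟩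
    else .N j

lemma rowC_inj (hdr : 310 * 2 ^ h ≤ dr) (φ : Frame h) {k : ℕ} (hk : k < 64) :
    Function.Injective (rowC hdr φ k) := by
  intro j j' hj
  match k, hk with
  | 0, _ => simp only [rowC, Row.F.injEq, true_and] at hj; exact hj
  | 1, _ => simp only [rowC, Row.F.injEq, true_and] at hj; exact hj
  | k + 2, hk =>
    have hk' : k < 62 := by omega
    simp only [rowC, dif_pos hk', Row.D.injEq, Fin.mk.injEq] at hj
    exact Fin.ext (by omega)

lemma colC_inj (hdc : 305 * 2 ^ h ≤ dc) (φ : Frame h) {k : ℕ} (hk : k < 64) :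
    Function.Injective (colC hdc φ k) := by
  intro j j' hj
  match k, hk with
  | 0, _ => simp only [colC, Col.N.injEq] at hj; exact hj
  | 1, _ => simp only [colC, Col.G.injEq, true_and] at hj; exact hj
  | 2, _ => simp only [colC, Col.G.injEq, true_and] at hj; exact hj
  | k + 3, hk =>
    have hk' : k < 61 := by omega
    simp only [colC, dif_pos hk', Col.D.injEq, Fin.mk.injEq] at hj
    exact Fin.ext (by omega)

lemma rowC_lt (hdr : 310 * 2 ^ h ≤ dr) (φ : Frame h) {k k' : ℕ} (hk : k < k') (hk' : k' < 64)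
    (j j' : Fin (5 * 2 ^ h)) : rowC hdr φ k j < rowC hdr φ k' j' := by
  match k, k', hk, hk' with
  | 0, 1, _, _ => exact Row.F_false_lt_true _ _ _
  | 0, n + 2, _, hn =>
    have : n < 62 := by omega
    simp only [rowC, dif_pos this]; exact Row.F_lt_D
  | 1, n + 2, _, hn =>
    have : n < 62 := by omega
    simp only [rowC, dif_pos this]; exact Row.F_lt_D
  | m + 2, n + 2, hmn, hn =>
    have h1 : n < 62 := by omega
    have h2 : m < 62 := by omega
    simp only [rowC, dif_pos h1, dif_pos h2]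
    rw [Row.D_lt_D, Fin.lt_def]
    exact block_mono (by omega) j.isLt

lemma colC_lt (hdc : 305 * 2 ^ h ≤ dc) (φ : Frame h) {k k' : ℕ} (hk : k < k') (hk' : k' < 64)
    (j j' : Fin (5 * 2 ^ h)) : colC hdc φ k j < colC hdc φ k' j' := by
  match k, k', hk, hk' with
  | 0, 1, _, _ => exact Col.N_lt_G
  | 0, 2, _, _ => exact Col.N_lt_G
  | 1, 2, _, _ => exact Col.G_false_lt_true _ _ _
  | 0, n + 3, _, hn =>
    have : n < 61 := by omega
    simp only [colC, dif_pos this]; exact Col.N_lt_D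
  | 1, n + 3, _, hn =>
    have : n < 61 := by omega
    simp only [colC, dif_pos this]; exact Col.G_lt_D
  | 2, n + 3, _, hn =>
    have : n < 61 := by omega
    simp only [colC, dif_pos this]; exact Col.G_lt_D
  | m + 3, n + 3, hmn, hn =>
    have h1 : n < 61 := by omega
    have h2 : m < 61 := by omega
    simp only [colC, dif_pos h1, dif_pos h2]
    rw [Col.D_lt_D, Fin.lt_def]
    exact block_mono (by omega) j.isLt

/-- The row classes are not tree rows. -/
lemma rowC_notT (hdr : 310 * 2 ^ h ≤ dr) (φ : Frame h) {k : ℕ} (j : Fin (5 * 2 ^ h)) :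
    Row.notT (rowC hdr φ k j) := by
  match k with
  | 0 => trivial
  | 1 => trivial
  | k + 2 =>
    simp only [rowC]
    split_ifs <;> trivial

/-- The column classes are not tree columns. -/
lemma colC_notT (hdc : 305 * 2 ^ h ≤ dc) (φ : Frame h) {k : ℕ} (j : Fin (5 * 2 ^ h)) :
    Col.notT (colC hdc φ k j) := by
  match k with
  | 0 => trivial
  | 1 => trivial
  | 2 => trivial
  | k + 3 =>
    simp only [colC]
    split_ifs <;> trivial

/-- The core pattern. -/
def H0 (i j : ℕ) : Bool :=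
  if i = 0 then decide (j = 0 ∨ j = 1 ∨ j = 2 ∨ j = 3)
  else if i = 1 then decide (j = 0 ∨ j = 2 ∨ j = 4)
  else if i = 2 then decide (j = 1 ∨ j = 4)
  else if i = 3 then decide (j = 2)
  else false

/-- The pattern. -/
def H66 (i j : Fin 66) : Bool := H0 i.val j.val

/-- Rows of the copy. -/
def rowF (ρ : ℕ → Row h dr) (r1 r2 : TE h) (i : ℕ) : Row h dr :=
  if i = 2 then .T r1 else if i = 3 then .T r2 else if i < 2 then ρ i else ρ (i - 2)

/-- Columns of the copy. -/
def colF (γ : ℕ → Col h dc) (c1 c2 : TE h) (j : ℕ) : Col h dc :=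
  if j = 3 then .T c1 else if j = 4 then .T c2 else if j < 3 then γ j else γ (j - 2)

/-- Assembling a copy of the pattern out of the selected elements. -/
theorem assemble (B : Row h dr → Col h dc → Bool) (φ : Frame h) {r1 r2 c1 c2 : TE h}
    (t1 : (tau φ false).mem r1 = true) (t2 : (tau φ true).mem r2 = true)
    (s1 : (sig φ false).mem c1 = true) (s2 : (sig φ true).mem c2 = true)
    (hr : r1 < r2) (hc : c1 < c2)
    (p11 : B (.T r1) (.T c1) = false) (p12 : B (.T r1) (.T c2) = true)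
    (p21 : B (.T r2) (.T c1) = false) (p22 : B (.T r2) (.T c2) = false)
    (ρ : ℕ → Row h dr) (γ : ℕ → Col h dc)
    {j0 j1 g0 g1 g2 : Fin (5 * 2 ^ h)}
    (hρ0 : ρ 0 = .F φ false j0) (hρ1 : ρ 1 = .F φ true j1)
    (hρD : ∀ n, 2 ≤ n → n < 64 → ∃ d, ρ n = .D d)
    (hγ0 : γ 0 = .N g0) (hγ1 : γ 1 = .G φ false g1) (hγ2 : γ 2 = .G φ true g2)
    (hγD : ∀ n, 3 ≤ n → n < 64 → ∃ d, γ n = .D d)
    (hρc : ∀ n, n < 64 → B (ρ n) (.T c1) = Am (ρ n) (Col.T c1 : Col h dc) ∧
      B (ρ n) (.T c2) = Am (ρ n) (Col.T c2 : Col h dc))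
    (hγr : ∀ n, n < 64 → B (.T r1) (γ n) = Am (Row.T r1 : Row h dr) (γ n) ∧
      B (.T r2) (γ n) = Am (Row.T r2 : Row h dr) (γ n))
    (hργ : ∀ n m, n < 64 → m < 64 → B (ρ n) (γ m) = Am (ρ n) (γ m))
    (hρlt : ∀ n m, n < m → m < 64 → ρ n < ρ m)
    (hγlt : ∀ n m, n < m → m < 64 → γ n < γ m) :
    ∃ (ρ' : Fin 66 → Row h dr) (γ' : Fin 66 → Col h dc), StrictMono ρ' ∧ StrictMono γ' ∧
      ∀ i j, B (ρ' i) (γ' j) = H66 i j := by
  have r0 : rowF ρ r1 r2 0 = ρ 0 := by simp [rowF]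
  have r1' : rowF ρ r1 r2 1 = ρ 1 := by simp [rowF]
  have r2' : rowF ρ r1 r2 2 = .T r1 := by simp [rowF]
  have r3' : rowF ρ r1 r2 3 = .T r2 := by simp [rowF]
  have r4' : ∀ a, 4 ≤ a → rowF ρ r1 r2 a = ρ (a - 2) := by
    intro a ha
    simp only [rowF]
    rw [if_neg (by omega), if_neg (by omega), if_neg (by omega)]
  have c0 : colF γ c1 c2 0 = γ 0 := by simp [colF]
  have c1' : colF γ c1 c2 1 = γ 1 := by simp [colF]
  have c2' : colF γ c1 c2 2 = γ 2 := by simp [colF]
  have c3' : colF γ c1 c2 3 = .T c1 := by simp [colF]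
  have c4' : colF γ c1 c2 4 = .T c2 := by simp [colF]
  have c5' : ∀ a, 5 ≤ a → colF γ c1 c2 a = γ (a - 2) := by
    intro a ha
    simp only [colF]
    rw [if_neg (by omega), if_neg (by omega), if_neg (by omega)]
  refine ⟨fun i => rowF ρ r1 r2 i.val, fun j => colF γ c1 c2 j.val, ?_, ?_, ?_⟩
  · -- rows strictly increasing
    rw [Fin.strictMono_iff_lt_succ]
    rintro ⟨a, ha⟩
    simp only [Fin.val_castSucc, Fin.val_succ]
    have hcase : a = 0 ∨ a = 1 ∨ a = 2 ∨ a = 3 ∨ 4 ≤ a := by omega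
    rcases hcase with rfl | rfl | rfl | rfl | h4
    · rw [r0, show (0 + 1 : ℕ) = 1 from rfl, r1']; exact hρlt 0 1 (by norm_num) (by norm_num)
    · rw [r1', show (1 + 1 : ℕ) = 2 from rfl, r2', hρ1]; exact Row.F_lt_T
    · rw [r2', show (2 + 1 : ℕ) = 3 from rfl, r3']; exact Row.T_lt_T.mpr hr
    · rw [r3', show (3 + 1 : ℕ) = 4 from rfl, r4' 4 (by norm_num)]
      obtain ⟨d, hd⟩ := hρD (4 - 2) (by norm_num) (by norm_num)
      rw [hd]; exact Row.T_lt_D
    · rw [r4' a h4, r4' (a + 1) (by omega)]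
      exact hρlt _ _ (by omega) (by omega)
  · -- columns strictly increasing
    rw [Fin.strictMono_iff_lt_succ]
    rintro ⟨a, ha⟩
    simp only [Fin.val_castSucc, Fin.val_succ]
    have hcase : a = 0 ∨ a = 1 ∨ a = 2 ∨ a = 3 ∨ a = 4 ∨ 5 ≤ a := by omega
    rcases hcase with rfl | rfl | rfl | rfl | rfl | h4
    · rw [c0, show (0 + 1 : ℕ) = 1 from rfl, c1']; exact hγlt 0 1 (by norm_num) (by norm_num)
    · rw [c1', show (1 + 1 : ℕ) = 2 from rfl, c2']; exact hγlt 1 2 (by norm_num) (by norm_num)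
    · rw [c2', show (2 + 1 : ℕ) = 3 from rfl, c3', hγ2]; exact Col.G_lt_T
    · rw [c3', show (3 + 1 : ℕ) = 4 from rfl, c4']; exact Col.T_lt_T.mpr hc
    · rw [c4', show (4 + 1 : ℕ) = 5 from rfl, c5' 5 (by norm_num)]
      obtain ⟨d, hd⟩ := hγD (5 - 2) (by norm_num) (by norm_num)
      rw [hd]; exact Col.T_lt_D
    · rw [c5' a h4, c5' (a + 1) (by omega)]
      exact hγlt _ _ (by omega) (by omega)
  · -- the values
    have a1 : (sig φ true).mem c1 = false := by
      cases g : (sig φ true).mem c1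
      · rfl
      · exact absurd ⟨s1, g⟩ (sig_disjoint φ c1)
    have a2 : (sig φ false).mem c2 = false := by
      cases g : (sig φ false).mem c2
      · rfl
      · exact absurd ⟨g, s2⟩ (sig_disjoint φ c2)
    have a3 : (tau φ true).mem r1 = false := by
      cases g : (tau φ true).mem r1
      · rfl
      · exact absurd ⟨t1, g⟩ (tau_disjoint φ r1)
    have a4 : (tau φ false).mem r2 = false := by
      cases g : (tau φ false).mem r2
      · rfl
      · exact absurd ⟨g, t2⟩ (tau_disjoint φ r2)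
    have hee : decide ((φ : Frame h) = φ) = true := by simp
    rintro ⟨a, ha⟩ ⟨b, hb⟩
    simp only [H66]
    have hH1 : ∀ x, 5 ≤ x → H0 0 x = false ∧ H0 1 x = false ∧ H0 2 x = false ∧ H0 3 x = false := by
      intro x hx
      simp only [H0]
      norm_num
      omega
    have hH2 : ∀ x y, 4 ≤ x → H0 x y = false := by
      intro x y hx
      simp only [H0]
      rw [if_neg (by omega), if_neg (by omega), if_neg (by omega), if_neg (by omega)]
    have hcase : a = 0 ∨ a = 1 ∨ a = 2 ∨ a = 3 ∨ 4 ≤ a := by omega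
    have hcase' : b = 0 ∨ b = 1 ∨ b = 2 ∨ b = 3 ∨ b = 4 ∨ 5 ≤ b := by omega
    rcases hcase with rfl | rfl | rfl | rfl | h4
    · -- row `f1`
      rw [r0]
      rcases hcase' with rfl | rfl | rfl | rfl | rfl | h5
      · rw [c0, hργ 0 0 (by norm_num) (by norm_num), hρ0, hγ0]; rfl
      · rw [c1', hργ 0 1 (by norm_num) (by norm_num), hρ0, hγ1]
        simp [Am, WW, H0]
      · rw [c2', hργ 0 2 (by norm_num) (by norm_num), hρ0, hγ2]
        simp [Am, WW, H0]
      · rw [c3', (hρc 0 (by norm_num)).1, hρ0, Am_F_T, s1]; rfl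
      · rw [c4', (hρc 0 (by norm_num)).2, hρ0, Am_F_T, a2]; rfl
      · obtain ⟨d, hd⟩ := hγD (b - 2) (by omega) (by omega)
        rw [c5' b h5, hργ 0 (b - 2) (by norm_num) (by omega), hd, hρ0, Am_F_D, (hH1 b h5).1]
    · -- row `f2`
      rw [r1']
      rcases hcase' with rfl | rfl | rfl | rfl | rfl | h5
      · rw [c0, hργ 1 0 (by norm_num) (by norm_num), hρ1, hγ0]; rfl
      · rw [c1', hργ 1 1 (by norm_num) (by norm_num), hρ1, hγ1]
        simp [Am, WW, H0]
      · rw [c2', hργ 1 2 (by norm_num) (by norm_num), hρ1, hγ2]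
        simp [Am, WW, H0]
      · rw [c3', (hρc 1 (by norm_num)).1, hρ1, Am_F_T, a1]; rfl
      · rw [c4', (hρc 1 (by norm_num)).2, hρ1, Am_F_T, s2]; rfl
      · obtain ⟨d, hd⟩ := hγD (b - 2) (by omega) (by omega)
        rw [c5' b h5, hργ 1 (b - 2) (by norm_num) (by omega), hd, hρ1, Am_F_D, (hH1 b h5).2.1]
    · -- row `r1`
      rw [r2']
      rcases hcase' with rfl | rfl | rfl | rfl | rfl | h5
      · rw [c0, (hγr 0 (by norm_num)).1, hγ0]; rfl
      · rw [c1', (hγr 1 (by norm_num)).1, hγ1, Am_T_G, t1]; rfl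
      · rw [c2', (hγr 2 (by norm_num)).1, hγ2, Am_T_G, a3]; rfl
      · rw [c3', p11]; rfl
      · rw [c4', p12]; rfl
      · obtain ⟨d, hd⟩ := hγD (b - 2) (by omega) (by omega)
        rw [c5' b h5, (hγr (b - 2) (by omega)).1, hd, Am_T_D, (hH1 b h5).2.2.1]
    · -- row `r2`
      rw [r3']
      rcases hcase' with rfl | rfl | rfl | rfl | rfl | h5
      · rw [c0, (hγr 0 (by norm_num)).2, hγ0]; rfl
      · rw [c1', (hγr 1 (by norm_num)).2, hγ1, Am_T_G, a4]; rfl
      · rw [c2', (hγr 2 (by norm_num)).2, hγ2, Am_T_G, t2]; rfl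
      · rw [c3', p21]; rfl
      · rw [c4', p22]; rfl
      · obtain ⟨d, hd⟩ := hγD (b - 2) (by omega) (by omega)
        rw [c5' b h5, (hγr (b - 2) (by omega)).2, hd, Am_T_D, (hH1 b h5).2.2.2]
    · -- dummy rows
      rw [r4' a h4, hH2 a b h4]
      obtain ⟨d, hd⟩ := hρD (a - 2) (by omega) (by omega)
      rcases hcase' with rfl | rfl | rfl | rfl | rfl | h5
      · rw [c0, hργ (a - 2) 0 (by omega) (by norm_num), hd, Am_D]
      · rw [c1', hργ (a - 2) 1 (by omega) (by norm_num), hd, Am_D]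
      · rw [c2', hργ (a - 2) 2 (by omega) (by norm_num), hd, Am_D]
      · rw [c3', (hρc (a - 2) (by omega)).1, hd, Am_D]
      · rw [c4', (hρc (a - 2) (by omega)).2, hd, Am_D]
      · rw [c5' b h5, hργ (a - 2) (b - 2) (by omega) (by omega), hd, Am_D]

/-- Completing a good designated tuple to a copy of the pattern. -/
theorem complete (hdr : 310 * 2 ^ h ≤ dr) (hdc : 305 * 2 ^ h ≤ dc)
    (B : Row h dr → Col h dc → Bool) (hZ : (flips B).card < (2 ^ h) ^ 2) (φ : Frame h)
    {r1 r2 c1 c2 : TE h} (hr1 : r1 ∉ Wr B) (hr2 : r2 ∉ Wr B) (hc1 : c1 ∉ Wc B) (hc2 : c2 ∉ Wc B)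
    (t1 : (tau φ false).mem r1 = true) (t2 : (tau φ true).mem r2 = true)
    (s1 : (sig φ false).mem c1 = true) (s2 : (sig φ true).mem c2 = true)
    (hr : r1 < r2) (hc : c1 < c2)
    (p11 : B (.T r1) (.T c1) = false) (p12 : B (.T r1) (.T c2) = true)
    (p21 : B (.T r2) (.T c1) = false) (p22 : B (.T r2) (.T c2) = false) :
    ∃ (ρ : Fin 66 → Row h dr) (γ : Fin 66 → Col h dc), StrictMono ρ ∧ StrictMono γ ∧
      ∀ i j, B (ρ i) (γ j) = H66 i j := by
  have hS : 0 < 2 ^ h := by positivity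
  set S := 2 ^ h with hSdef
  -- classes
  let 𝓡 : Fin 64 → Finset (Row h dr) := fun k =>
    (Finset.univ.image (rowC hdr φ k.val)) \ (badR B c1 ∪ badR B c2)
  let 𝓒 : Fin 64 → Finset (Col h dc) := fun k =>
    (Finset.univ.image (colC hdc φ k.val)) \ (badC B r1 ∪ badC B r2)
  have hc1' : (badR B c1).card < 2 * S := by
    by_contra hcon
    exact hc1 (Finset.mem_filter.mpr ⟨Finset.mem_univ _, not_lt.mp hcon⟩)
  have hc2' : (badR B c2).card < 2 * S := by
    by_contra hcon
    exact hc2 (Finset.mem_filter.mpr ⟨Finset.mem_univ _, not_lt.mp hcon⟩)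
  have hr1' : (badC B r1).card < 2 * S := by
    by_contra hcon
    exact hr1 (Finset.mem_filter.mpr ⟨Finset.mem_univ _, not_lt.mp hcon⟩)
  have hr2' : (badC B r2).card < 2 * S := by
    by_contra hcon
    exact hr2 (Finset.mem_filter.mpr ⟨Finset.mem_univ _, not_lt.mp hcon⟩)
  have hR : ∀ k, S ≤ (𝓡 k).card := by
    intro k
    have h1 : (Finset.univ.image (rowC hdr φ k.val)).card = 5 * S := by
      rw [Finset.card_image_of_injective _ (rowC_inj hdr φ k.isLt)]
      simp [hSdef]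
    have h2 := Finset.le_card_sdiff (badR B c1 ∪ badR B c2)
      (Finset.univ.image (rowC hdr φ k.val))
    have h3 := Finset.card_union_le (badR B c1) (badR B c2)
    simp only [𝓡]
    omega
  have hC : ∀ k, S ≤ (𝓒 k).card := by
    intro k
    have h1 : (Finset.univ.image (colC hdc φ k.val)).card = 5 * S := by
      rw [Finset.card_image_of_injective _ (colC_inj hdc φ k.isLt)]
      simp [hSdef]
    have h2 := Finset.le_card_sdiff (badC B r1 ∪ badC B r2)
      (Finset.univ.image (colC hdc φ k.val))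
    have h3 := Finset.card_union_le (badC B r1) (badC B r2)
    simp only [𝓒]
    omega
  have hdisj : ∀ k k', k ≠ k' → Disjoint (𝓡 k) (𝓡 k') := by
    intro k k' hne
    rw [Finset.disjoint_left]
    intro r hr hr'
    simp only [𝓡, Finset.mem_sdiff, Finset.mem_image, Finset.mem_univ, true_and] at hr hr'
    obtain ⟨⟨j, rfl⟩, _⟩ := hr
    obtain ⟨⟨j', hj'⟩, _⟩ := hr'
    rcases lt_or_gt_of_ne (fun g => hne (Fin.ext g) : k.val ≠ k'.val) with g | g
    · exact absurd hj'.symm (ne_of_lt (rowC_lt hdr φ g k'.isLt j j'))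
    · exact absurd hj' (ne_of_lt (rowC_lt hdr φ g k.isLt j' j))
  have hZ' : (flips B).card < S * S := by rw [← pow_two]; exact hZ
  obtain ⟨ρ', γ', hρ, hγ, hno⟩ := select 𝓡 𝓒 (flips B) S hR hC hdisj hZ'
  -- facts on the chosen elements
  have hρ1 : ∀ k, ∃ j, ρ' k = rowC hdr φ k.val j := by
    intro k
    have := hρ k
    simp only [𝓡, Finset.mem_sdiff, Finset.mem_image, Finset.mem_univ, true_and] at this
    obtain ⟨⟨j, hj⟩, _⟩ := this
    exact ⟨j, hj.symm⟩
  have hγ1 : ∀ k, ∃ j, γ' k = colC hdc φ k.val j := by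
    intro k
    have := hγ k
    simp only [𝓒, Finset.mem_sdiff, Finset.mem_image, Finset.mem_univ, true_and] at this
    obtain ⟨⟨j, hj⟩, _⟩ := this
    exact ⟨j, hj.symm⟩
  have hρ2 : ∀ k, B (ρ' k) (.T c1) = Am (ρ' k) (Col.T c1 : Col h dc) ∧
      B (ρ' k) (.T c2) = Am (ρ' k) (Col.T c2 : Col h dc) := by
    intro k
    have h1 := hρ k
    obtain ⟨j, hj⟩ := hρ1 k
    have hnT : Row.notT (ρ' k) := by rw [hj]; exact rowC_notT hdr φ j
    simp only [𝓡, Finset.mem_sdiff, Finset.mem_union, not_or] at h1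
    obtain ⟨_, h2, h3⟩ := h1
    constructor
    · by_contra hcon
      exact h2 (Finset.mem_filter.mpr ⟨Finset.mem_univ _, hnT, hcon⟩)
    · by_contra hcon
      exact h3 (Finset.mem_filter.mpr ⟨Finset.mem_univ _, hnT, hcon⟩)
  have hγ2 : ∀ k, B (.T r1) (γ' k) = Am (Row.T r1 : Row h dr) (γ' k) ∧
      B (.T r2) (γ' k) = Am (Row.T r2 : Row h dr) (γ' k) := by
    intro k
    have h1 := hγ k
    obtain ⟨j, hj⟩ := hγ1 k
    have hnT : Col.notT (γ' k) := by rw [hj]; exact colC_notT hdc φ j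
    simp only [𝓒, Finset.mem_sdiff, Finset.mem_union, not_or] at h1
    obtain ⟨_, h2, h3⟩ := h1
    constructor
    · by_contra hcon
      exact h2 (Finset.mem_filter.mpr ⟨Finset.mem_univ _, hnT, hcon⟩)
    · by_contra hcon
      exact h3 (Finset.mem_filter.mpr ⟨Finset.mem_univ _, hnT, hcon⟩)
  have hρ3 : ∀ k l, B (ρ' k) (γ' l) = Am (ρ' k) (γ' l) := by
    intro k l
    by_contra hcon
    exact hno k l (Finset.mem_filter.mpr ⟨Finset.mem_univ _, hcon⟩)
  -- pass to natural number indices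
  let ρn : ℕ → Row h dr := fun n => if hn : n < 64 then ρ' ⟨n, hn⟩ else ρ' 0
  let γn : ℕ → Col h dc := fun n => if hn : n < 64 then γ' ⟨n, hn⟩ else γ' 0
  have eρ : ∀ n (hn : n < 64), ρn n = ρ' ⟨n, hn⟩ := fun n hn => dif_pos hn
  have eγ : ∀ n (hn : n < 64), γn n = γ' ⟨n, hn⟩ := fun n hn => dif_pos hn
  obtain ⟨j0, h0⟩ := hρ1 ⟨0, by norm_num⟩
  obtain ⟨j1, h1⟩ := hρ1 ⟨1, by norm_num⟩
  obtain ⟨g0, g0'⟩ := hγ1 ⟨0, by norm_num⟩
  obtain ⟨g1, g1'⟩ := hγ1 ⟨1, by norm_num⟩
  obtain ⟨g2, g2'⟩ := hγ1 ⟨2, by norm_num⟩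
  refine assemble B φ t1 t2 s1 s2 hr hc p11 p12 p21 p22 ρn γn
    (j0 := j0) (j1 := j1) (g0 := g0) (g1 := g1) (g2 := g2)
    ?_ ?_ ?_ ?_ ?_ ?_ ?_ ?_ ?_ ?_ ?_ ?_
  · rw [eρ 0 (by norm_num), h0]; rfl
  · rw [eρ 1 (by norm_num), h1]; rfl
  · intro n hn hn'
    rw [eρ n hn']
    obtain ⟨j, hj⟩ := hρ1 ⟨n, hn'⟩
    obtain ⟨m, rfl⟩ : ∃ m, n = m + 2 := ⟨n - 2, by omega⟩
    have hm : m < 62 := by omega
    simp only [rowC, dif_pos hm] at hj
    exact ⟨_, hj⟩
  · rw [eγ 0 (by norm_num), g0']; rfl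
  · rw [eγ 1 (by norm_num), g1']; rfl
  · rw [eγ 2 (by norm_num), g2']; rfl
  · intro n hn hn'
    rw [eγ n hn']
    obtain ⟨j, hj⟩ := hγ1 ⟨n, hn'⟩
    obtain ⟨m, rfl⟩ : ∃ m, n = m + 3 := ⟨n - 3, by omega⟩
    have hm : m < 61 := by omega
    simp only [colC, dif_pos hm] at hj
    exact ⟨_, hj⟩
  · intro n hn
    rw [eρ n hn]
    exact hρ2 _
  · intro n hn
    rw [eγ n hn]
    exact hγ2 _
  · intro n m hn hm
    rw [eρ n hn, eγ m hm]
    exact hρ3 _ _
  · intro n m hnm hm
    rw [eρ n (by omega), eρ m hm]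
    obtain ⟨j, hj⟩ := hρ1 ⟨n, by omega⟩
    obtain ⟨j', hj'⟩ := hρ1 ⟨m, hm⟩
    rw [hj, hj']
    exact rowC_lt hdr φ hnm hm j j'
  · intro n m hnm hm
    rw [eγ n (by omega), eγ m hm]
    obtain ⟨j, hj⟩ := hγ1 ⟨n, by omega⟩
    obtain ⟨j', hj'⟩ := hγ1 ⟨m, hm⟩
    rw [hj, hj']
    exact colC_lt hdc φ hnm hm j j'

/-- If a matrix has few flips relative to `Am`, it contains a copy of the pattern. -/
theorem far (hh : 1 ≤ h) (hdr : 310 * 2 ^ h ≤ dr) (hdc : 305 * 2 ^ h ≤ dc)
    (B : Row h dr → Col h dc → Bool) (hZ : (flips B).card < (2 ^ h) ^ 2) :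
    ∃ (ρ : Fin 66 → Row h dr) (γ : Fin 66 → Col h dc), StrictMono ρ ∧ StrictMono γ ∧
      ∀ i j, B (ρ i) (γ j) = H66 i j := by
  by_contra hcon
  have hN : NoP (fun r c => B (.T r) (.T c)) (Wr B) (Wc B) := by
    intro φ r1 r2 c1 c2 hr1 hr2 hc1 hc2 t1 t2 s1 s2 hr hc hP
    exact hcon (complete hdr hdc B hZ φ hr1 hr2 hc1 hc2 t1 t2 s1 s2 hr hc hP.1 hP.2.1 hP.2.2.1
      hP.2.2.2)
  have hS : 0 < 2 ^ h := by positivity
  have hW : 2 * ((Wr B).card + (Wc B).card) < 2 ^ h := by
    have h1 := bad_count B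
    have h2 : 2 * 2 ^ h * ((Wr B).card + (Wc B).card) < 2 ^ h * 2 ^ h := by
      rw [← pow_two]; omega
    by_contra h3
    push_neg at h3
    have h4 := Nat.mul_le_mul_left (2 ^ h) h3
    nlinarith
  have h1 := cascade hh hN hW
  have h2 : (Zset (fun r c => B (.T r) (.T c))).card ≤ (flips B).card := by
    have hinj : Function.Injective (fun p : TE h × TE h =>
        ((Row.T p.1 : Row h dr), (Col.T p.2 : Col h dc))) := by
      intro p q hpq
      simp only [Prod.mk.injEq] at hpq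
      exact Prod.ext (Row.T_inj hpq.1) (Col.T_inj hpq.2)
    rw [← Finset.card_image_of_injective _ hinj]
    apply Finset.card_le_card
    intro q hq
    obtain ⟨p, hp, rfl⟩ := Finset.mem_image.mp hq
    have := (Finset.mem_filter.mp hp).2
    simp only [flip] at this
    exact Finset.mem_filter.mpr ⟨Finset.mem_univ _, this⟩
  omega

end Crest.Agent.Lib.S66
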