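import Crest.Agent.Lib.S66.Complete
import Crest.Prelude.Def_OrderedMatrix

/-!
# S0066: cardinalities, counting of copies, transport to `Fin n`
-/

namespace Crest.Agent.Lib.S66

open scoped Classical

variable {h dr dc : ℕ}

lemma card_lab : Fintype.card Lab = 3 := rfl

lemma card_fk : Fintype.card FK = 6 := rfl

lemma card_frame (h : ℕ) : Fintype.card (Frame h) = (h - 1) * 12 + 4 := by
  simp only [Frame, Fintype.card_sum, Fintype.card_prod, Fintype.card_fin, Fintype.card_bool,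
    card_fk]

lemma card_TE (h : ℕ) : Fintype.card (TE h) = 3 * 2 ^ h + 9 * (h * 2 ^ h) := by
  have h1 : Fintype.card (TE h) = ∑ n : Nd h, 3 * M n.d := by
    simp only [TE, Fintype.card_sigma, Fintype.card_prod, card_lab, Fintype.card_fin]
  rw [h1]
  have h2 : ∑ n : Nd h, 3 * M n.d = ∑ d : Fin (h + 1), 2 ^ (h - d.val) * (3 * M d.val) := by
    simp only [Nd]
    rw [Fintype.sum_sigma]
    apply Finset.sum_congr rfl
    intro d _
    simp [Nd.d]
  rw [h2, Fin.sum_univ_succ]
  have h3 : ∀ d : Fin h, 2 ^ (h - (d.succ : Fin (h + 1)).val) * (3 * M (d.succ : Fin (h + 1)).val)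
      = 9 * 2 ^ h := by
    intro d
    have hd := d.isLt
    simp only [Fin.val_succ, M]
    rw [if_neg (by omega)]
    have : 2 ^ h = 2 ^ (h - (d.val + 1)) * 2 ^ (d.val + 1) := by
      rw [← pow_add]; congr 1; omega
    rw [this]; ring
  have h0 : 2 ^ (h - (0 : Fin (h + 1)).val) * (3 * M (0 : Fin (h + 1)).val) = 3 * 2 ^ h := by
    simp only [Fin.val_zero, M, if_true, Nat.sub_zero]
    ring
  rw [h0, Finset.sum_congr rfl (fun d _ => h3 d), Finset.sum_const, Finset.card_univ,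
    Fintype.card_fin, smul_eq_mul]
  ring

/-- Row padding. -/
noncomputable def drOf (h : ℕ) : ℕ :=
  (386 * h + 2) * 2 ^ h - (Fintype.card (Frame h × Bool × Fin (5 * 2 ^ h)) + Fintype.card (TE h))

/-- Column padding. -/
noncomputable def dcOf (h : ℕ) : ℕ :=
  (386 * h + 2) * 2 ^ h -
    (5 * 2 ^ h + Fintype.card (Frame h × Bool × Fin (5 * 2 ^ h)) + Fintype.card (TE h))

lemma budget (hh : 1 ≤ h) :
    Fintype.card (Frame h × Bool × Fin (5 * 2 ^ h)) + Fintype.card (TE h) + 310 * 2 ^ h ≤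
      (386 * h + 2) * 2 ^ h ∧
    5 * 2 ^ h + Fintype.card (Frame h × Bool × Fin (5 * 2 ^ h)) + Fintype.card (TE h) +
      305 * 2 ^ h ≤ (386 * h + 2) * 2 ^ h := by
  obtain ⟨k, rfl⟩ : ∃ k, h = k + 1 := ⟨h - 1, by omega⟩
  have e1 : Fintype.card (Frame (k + 1) × Bool × Fin (5 * 2 ^ (k + 1))) =
      120 * (k * 2 ^ (k + 1)) + 40 * 2 ^ (k + 1) := by
    simp only [Fintype.card_prod, Fintype.card_bool, Fintype.card_fin, card_frame]
    simp only [Nat.add_sub_cancel]
    ring
  have e2 := card_TE (k + 1)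
  have e3 : (k + 1) * 2 ^ (k + 1) = k * 2 ^ (k + 1) + 2 ^ (k + 1) := by ring
  have e4 : (386 * (k + 1) + 2) * 2 ^ (k + 1) = 386 * (k * 2 ^ (k + 1)) + 388 * 2 ^ (k + 1) := by
    ring
  rw [e1, e2, e3, e4]
  constructor <;> omega

lemma card_row (hh : 1 ≤ h) : Fintype.card (Row h (drOf h)) = (386 * h + 2) * 2 ^ h := by
  rw [Fintype.card_congr (rowEquiv h (drOf h)), Fintype.card_sum, Fintype.card_sum,
    Fintype.card_fin]
  have := (budget hh).1
  simp only [drOf]
  omega

lemma card_col (hh : 1 ≤ h) : Fintype.card (Col h (dcOf h)) = (386 * h + 2) * 2 ^ h := by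
  rw [Fintype.card_congr (colEquiv h (dcOf h)), Fintype.card_sum, Fintype.card_sum,
    Fintype.card_sum, Fintype.card_fin, Fintype.card_fin]
  have := (budget hh).2
  simp only [dcOf]
  omega

lemma dr_ge (hh : 1 ≤ h) : 310 * 2 ^ h ≤ drOf h := by
  have := (budget hh).1
  simp only [drOf]
  omega

lemma dc_ge (hh : 1 ≤ h) : 305 * 2 ^ h ≤ dcOf h := by
  have := (budget hh).2
  simp only [dcOf]
  omega

/-- Every copy of the pattern in `Am` has its cell `(2, 4)` at a leaf. -/
lemma copy_leaf {ρ : Fin 66 → Row h dr} {γ : Fin 66 → Col h dc} (hρ : StrictMono ρ)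
    (hγ : StrictMono γ) (hc : ∀ i j, Am (ρ i) (γ j) = H66 i j) :
    ∃ x y : TE h, ρ 2 = Row.T x ∧ γ 4 = Col.T y ∧ x.lev = 0 ∧ x.nd = y.nd ∧ x.lab = .a ∧
      y.lab = .m :=
  rigid (hρ (by decide : (0 : Fin 66) < 1)) (hρ (by decide : (1 : Fin 66) < 2))
    (hρ (by decide : (2 : Fin 66) < 3))
    (hγ (by decide : (0 : Fin 66) < 1)) (hγ (by decide : (1 : Fin 66) < 2))
    (hγ (by decide : (2 : Fin 66) < 3)) (hγ (by decide : (3 : Fin 66) < 4))
    (by rw [hc]; decide) (by rw [hc]; decide) (by rw [hc]; decide) (by rw [hc]; decide)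
    (by rw [hc]; decide) (by rw [hc]; decide) (by rw [hc]; decide) (by rw [hc]; decide)
    (by rw [hc]; decide) (by rw [hc]; decide) (by rw [hc]; decide) (by rw [hc]; decide)
    (by rw [hc]; decide) (by rw [hc]; decide) (by rw [hc]; decide) (by rw [hc]; decide)
    (by rw [hc]; decide) (by rw [hc]; decide) (by rw [hc]; decide) (by rw [hc]; decide)

/-- A leaf element is determined by its node and label. -/
lemma leaf_unique {x x' : TE h} (h1 : x.lev = 0) (h2 : x'.lev = 0) (h3 : x.nd.i = x'.nd.i)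
    (h4 : x.lab = x'.lab) : x = x' := by
  have hnd : x.nd = x'.nd := Nd.ext' (by simpa [TE.lev] using h1.trans h2.symm) h3
  refine TE.ext' hnd h4 ?_
  have p1 : x.pos < M x.nd.d := x.2.2.isLt
  have p2 : x'.pos < M x'.nd.d := x'.2.2.isLt
  have h1' : x.nd.d = 0 := h1
  have h2' : x'.nd.d = 0 := h2
  rw [h1'] at p1
  rw [h2'] at p2
  simp only [M, if_true] at p1 p2
  omega

/-- The bound on the number of copies in `Am`, transported to `Fin n`. -/
theorem count_bound {n : ℕ} (eR : Fin n ≃o Row h dr) (eC : Fin n ≃o Col h dc) :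
    Crest.CombinatoricsR.OrderedMatrix.orderedCopyCount H66
      (fun i j => Am (eR i) (eC j)) ≤ 2 ^ h * (n ^ 65 * n ^ 65) := by
  unfold Crest.CombinatoricsR.OrderedMatrix.orderedCopyCount
  have key : ∀ rc : {rc : (Fin 66 → Fin n) × (Fin 66 → Fin n) //
      StrictMono rc.1 ∧ StrictMono rc.2 ∧ ∀ i j, Am (eR (rc.1 i)) (eC (rc.2 j)) = H66 i j},
      ∃ (ℓ : Fin (2 ^ h)) (x y : TE h), eR (rc.1.1 2) = Row.T x ∧ eC (rc.1.2 4) = Col.T y ∧
        x.lev = 0 ∧ x.nd.i = ℓ.val ∧ x.nd = y.nd ∧ x.lab = .a ∧ y.lab = .m := by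
    rintro ⟨⟨ρ, γ⟩, h1, h2, h3⟩
    obtain ⟨x, y, a1, a2, a3, a4, a5, a6⟩ := copy_leaf (ρ := fun i => eR (ρ i))
      (γ := fun j => eC (γ j)) (fun i j hij => eR.strictMono (h1 hij))
      (fun i j hij => eC.strictMono (h2 hij)) h3
    have hi : x.nd.i < 2 ^ h := by
      have := x.nd.i_lt
      have h0 : x.nd.d = 0 := a3
      rwa [h0, Nat.sub_zero] at this
    exact ⟨⟨x.nd.i, hi⟩, x, y, a1, a2, a3, rfl, a4, a5, a6⟩
  choose ℓ X Y hX hY hl hi hn hla hlb using key
  let F : {rc : (Fin 66 → Fin n) × (Fin 66 → Fin n) //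
      StrictMono rc.1 ∧ StrictMono rc.2 ∧ ∀ i j, Am (eR (rc.1 i)) (eC (rc.2 j)) = H66 i j} →
      Fin (2 ^ h) × (Fin 65 → Fin n) × (Fin 65 → Fin n) :=
    fun rc => (ℓ rc, fun k => rc.1.1 ((2 : Fin 66).succAbove k),
      fun k => rc.1.2 ((4 : Fin 66).succAbove k))
  have hF : Function.Injective F := by
    intro rc rc' hF
    simp only [F, Prod.mk.injEq] at hF
    obtain ⟨e1, e2, e3⟩ := hF
    have ex : X rc = X rc' :=
      leaf_unique (hl rc) (hl rc') (by rw [hi, hi, e1]) (by rw [hla, hla])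
    have ey : Y rc = Y rc' := by
      refine leaf_unique ?_ ?_ ?_ (by rw [hlb, hlb])
      · have := hl rc
        simp only [TE.lev] at this ⊢
        rw [← hn]; exact this
      · have := hl rc'
        simp only [TE.lev] at this ⊢
        rw [← hn]; exact this
      · rw [← hn, ← hn, hi, hi, e1]
    have e4 : rc.1.1 2 = rc'.1.1 2 := by
      apply eR.injective
      rw [hX, hX, ex]
    have e5 : rc.1.2 4 = rc'.1.2 4 := by
      apply eC.injective
      rw [hY, hY, ey]
    apply Subtype.ext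
    apply Prod.ext
    · funext i
      rcases Fin.eq_self_or_eq_succAbove 2 i with g | ⟨k, g⟩
      · rw [g]; exact e4
      · rw [g]; exact congrFun e2 k
    · funext i
      rcases Fin.eq_self_or_eq_succAbove 4 i with g | ⟨k, g⟩
      · rw [g]; exact e5
      · rw [g]; exact congrFun e3 k
  have hc := Fintype.card_le_of_injective F hF
  simp only [Fintype.card_prod, Fintype.card_fin, Fintype.card_fun] at hc
  simpa using hc

/-- Any `B` far from nothing: few flips give a copy; transported to `Fin n`. -/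
theorem far_bound (hh : 1 ≤ h) (hdr : 310 * 2 ^ h ≤ dr) (hdc : 305 * 2 ^ h ≤ dc) {n : ℕ}
    (eR : Fin n ≃o Row h dr) (eC : Fin n ≃o Col h dc) (B : Fin n → Fin n → Bool)
    (hB : Crest.CombinatoricsR.OrderedMatrix.orderedCopyCount H66 B = 0) :
    (2 ^ h) ^ 2 ≤ (Finset.univ.filter (fun rc : Fin n × Fin n =>
      Am (eR rc.1) (eC rc.2) ≠ B rc.1 rc.2)).card := by
  by_contra hcon
  push_neg at hcon
  let B' : Row h dr → Col h dc → Bool := fun r c => B (eR.symm r) (eC.symm c)
  have hfl : (flips B').card < (2 ^ h) ^ 2 := by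
    refine lt_of_le_of_lt ?_ hcon
    have hinj : Function.Injective (fun p : Row h dr × Col h dc => (eR.symm p.1, eC.symm p.2)) := by
      intro p q hpq
      simp only [Prod.mk.injEq, EmbeddingLike.apply_eq_iff_eq] at hpq
      exact Prod.ext hpq.1 hpq.2
    rw [← Finset.card_image_of_injective _ hinj]
    apply Finset.card_le_card
    intro q hq
    obtain ⟨p, hp, rfl⟩ := Finset.mem_image.mp hq
    have hp' := (Finset.mem_filter.mp hp).2
    refine Finset.mem_filter.mpr ⟨Finset.mem_univ _, ?_⟩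
    simp only [OrderIso.apply_symm_apply]
    exact fun g => hp' g.symm
  obtain ⟨ρ, γ, h1, h2, h3⟩ := far hh hdr hdc B' hfl
  unfold Crest.CombinatoricsR.OrderedMatrix.orderedCopyCount at hB
  rw [Fintype.card_eq_zero_iff] at hB
  apply hB.false
  refine ⟨(fun i => eR.symm (ρ i), fun j => eC.symm (γ j)), ?_, ?_, ?_⟩
  · intro i j hij; exact eR.symm.strictMono (h1 hij)
  · intro i j hij; exact eC.symm.strictMono (h2 hij)
  · intro i j; exact h3 i j

end Crest.Agent.Lib.S66
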