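import Crest.Agent.Lib.S66.Tree

/-!
# S0066: tests, frames and the safety of designated tuples
-/

namespace Crest.Agent.Lib.S66

/-- Tests on tree elements. -/
inductive Test
  | single (t : ℕ) (l : Lab)
  | exact (t : ℕ)
  | below (t : ℕ)

/-- Membership in a test. -/
def Test.mem {h : ℕ} : Test → TE h → Bool
  | .single t l, e => decide (e.lev = t) && decide (e.lab = l)
  | .exact t, e => decide (e.lev = t)
  | .below t, e => decide (e.lev < t)

@[simp] lemma mem_single {h : ℕ} {t : ℕ} {l : Lab} {e : TE h} :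
    (Test.single t l).mem e = true ↔ e.lev = t ∧ e.lab = l := by
  simp [Test.mem]

@[simp] lemma mem_exact {h : ℕ} {t : ℕ} {e : TE h} :
    (Test.exact t).mem e = true ↔ e.lev = t := by
  simp [Test.mem]

@[simp] lemma mem_below {h : ℕ} {t : ℕ} {e : TE h} :
    (Test.below t).mem e = true ↔ e.lev < t := by
  simp [Test.mem]

/-- Order rank for the tests of frame rows: small sets first. -/
def rkF : Test → ℕ
  | .single _ _ => 0
  | .exact _ => 1
  | .below _ => 2

/-- Secondary order rank for the tests of frame rows. -/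
def auxF : Test → ℕ
  | .below t => t
  | _ => 0

/-- Order rank for the tests of frame columns: large sets first. -/
def rkG : Test → ℕ
  | .below _ => 0
  | .exact _ => 1
  | .single _ _ => 2

/-- Secondary order rank for the tests of frame columns. -/
def auxG (h : ℕ) : Test → ℕ
  | .below t => h + 1 - t
  | _ => 0

/-- Laminarity for frame rows: earlier test is contained in the later one when they overlap. -/
lemma laminar_F {h : ℕ} {τ τ' : Test} (hk : rkF τ < rkF τ' ∨ (rkF τ = rkF τ' ∧ auxF τ ≤ auxF τ'))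
    {e e' : TE h} (h1 : τ.mem e = true) (h2 : τ'.mem e = true) (h3 : τ.mem e' = true) :
    τ'.mem e' = true := by
  cases τ <;> cases τ' <;> simp only [mem_single, mem_exact, mem_below, rkF, auxF] at * <;>
    first
    | omega
    | (obtain ⟨h1a, h1b⟩ := h1; obtain ⟨h2a, h2b⟩ := h2; obtain ⟨h3a, h3b⟩ := h3
       exact ⟨by omega, by rw [h3b, ← h1b, h2b]⟩)
    | (obtain ⟨h1a, h1b⟩ := h1; obtain ⟨h3a, h3b⟩ := h3; omega)

/-- Laminarity for frame columns: later test is contained in the earlier one when they overlap. -/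
lemma laminar_G {h : ℕ} {τ τ' : Test} (hle : ∀ t, τ = .below t → t ≤ h + 1)
    (hle' : ∀ t, τ' = .below t → t ≤ h + 1)
    (hk : rkG τ < rkG τ' ∨ (rkG τ = rkG τ' ∧ auxG h τ ≤ auxG h τ'))
    {e e' : TE h} (h1 : τ.mem e = true) (h2 : τ'.mem e = true) (h3 : τ'.mem e' = true) :
    τ.mem e' = true := by
  cases τ <;> cases τ' <;> simp only [mem_single, mem_exact, mem_below, rkG, auxG] at * <;>
    first
    | omega
    | (obtain ⟨h1a, h1b⟩ := h1; obtain ⟨h2a, h2b⟩ := h2; obtain ⟨h3a, h3b⟩ := h3
       exact ⟨by omega, by rw [h3b, ← h2b, h1b]⟩)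
    | (obtain ⟨h1a, h1b⟩ := h1; obtain ⟨h3a, h3b⟩ := h3; omega)
    | (obtain ⟨h2a, h2b⟩ := h2; obtain ⟨h3a, h3b⟩ := h3; omega)
    | (have := hle _ rfl; have := hle' _ rfl; omega)

/-- Frame kinds at levels at least two. -/
inductive FK | A | B | C1 | C2 | O1 | O2
  deriving DecidableEq

instance : Fintype FK :=
  ⟨{.A, .B, .C1, .C2, .O1, .O2}, by intro x; cases x <;> simp⟩

/-- Frames: level-two-and-up frames, and the four frames at level one. -/
abbrev Frame (h : ℕ) := (Fin (h - 1) × FK × Bool) ⊕ (Bool × Bool)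

/-- second row label for `Z` frames -/
def rZ (b : Bool) : Lab := if b then .p else .m
/-- first column label for `Z` frames -/
def cZ (b : Bool) : Lab := if b then .m else .a
/-- first row label for `O` frames -/
def rO (b : Bool) : Lab := if b then .m else .a
/-- second column label for `O` frames -/
def cO (b : Bool) : Lab := if b then .p else .m

/-- Row tests of a frame: `false` tests the first row, `true` the second. -/
def tau {h : ℕ} : Frame h → Bool → Test
  | .inl (x, .A, b), false => .exact (x.val + 1)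
  | .inl (x, .A, b), true => .single (x.val + 2) (rZ b)
  | .inl (x, .B, b), false => .below (x.val + 1)
  | .inl (x, .B, b), true => .single (x.val + 2) (rZ b)
  | .inl (x, .C1, b), false => .single (x.val + 1) .m
  | .inl (x, .C1, b), true => .single (x.val + 2) (rZ b)
  | .inl (x, .C2, b), false => .single (x.val + 1) .p
  | .inl (x, .C2, b), true => .single (x.val + 2) (rZ b)
  | .inl (x, .O1, b), false => .single (x.val + 2) (rO b)
  | .inl (x, .O1, b), true => .single (x.val + 1) .a
  | .inl (x, .O2, b), false => .single (x.val + 2) (rO b)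
  | .inl (x, .O2, b), true => .single (x.val + 1) .m
  | .inr (false, b), false => .single 0 .a
  | .inr (false, b), true => .single 1 (rZ b)
  | .inr (true, b), false => .single 1 (rO b)
  | .inr (true, b), true => .single 0 .a

/-- Column tests of a frame: `false` tests the first column, `true` the second. -/
def sig {h : ℕ} : Frame h → Bool → Test
  | .inl (x, .A, b), false => .single (x.val + 2) (cZ b)
  | .inl (x, .A, b), true => .below (x.val + 1)
  | .inl (x, .B, b), false => .single (x.val + 2) (cZ b)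
  | .inl (x, .B, b), true => .exact (x.val + 1)
  | .inl (x, .C1, b), false => .single (x.val + 2) (cZ b)
  | .inl (x, .C1, b), true => .single (x.val + 1) .a
  | .inl (x, .C2, b), false => .single (x.val + 2) (cZ b)
  | .inl (x, .C2, b), true => .single (x.val + 1) .m
  | .inl (x, .O1, b), false => .single (x.val + 1) .m
  | .inl (x, .O1, b), true => .single (x.val + 2) (cO b)
  | .inl (x, .O2, b), false => .single (x.val + 1) .p
  | .inl (x, .O2, b), true => .single (x.val + 2) (cO b)
  | .inr (false, b), false => .single 1 (cZ b)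
  | .inr (false, b), true => .single 0 .m
  | .inr (true, b), false => .single 0 .m
  | .inr (true, b), true => .single 1 (cO b)

/-- Same frame: the first column test has no larger order rank than the second. -/
lemma sig_rank {h : ℕ} (φ : Frame h) :
    (rkF (sig φ false) < rkF (sig φ true)) ∨
      (rkF (sig φ false) = rkF (sig φ true) ∧ auxF (sig φ false) = auxF (sig φ true)) := by
  obtain ⟨x, k, b⟩ | ⟨t, b⟩ := φ
  · cases k <;> simp [sig, rkF, auxF]
  · cases t <;> simp [sig, rkF, auxF]

/-- Same frame: the first row test has no larger order rank than the second. -/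
lemma tau_rank {h : ℕ} (φ : Frame h) :
    (rkG (tau φ false) < rkG (tau φ true)) ∨
      (rkG (tau φ false) = rkG (tau φ true) ∧ auxG h (tau φ false) = auxG h (tau φ true)) := by
  obtain ⟨x, k, b⟩ | ⟨t, b⟩ := φ
  · cases k <;> simp [tau, rkG, auxG]
  · cases t <;> simp [tau, rkG, auxG]

/-- Bounds on the thresholds. -/
lemma tau_below_le {h : ℕ} (φ : Frame h) (k : Bool) (t : ℕ) (ht : tau φ k = .below t) :
    t ≤ h + 1 := by
  obtain ⟨⟨x, hx⟩, fk, b⟩ | ⟨a, b⟩ := φ
  · cases fk <;> cases k <;> simp [tau] at ht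
    omega
  · cases a <;> cases k <;> simp [tau] at ht

/-- The two row tests of a frame are disjoint. -/
lemma tau_disjoint {h : ℕ} (φ : Frame h) (e : TE h) :
    ¬ ((tau φ false).mem e = true ∧ (tau φ true).mem e = true) := by
  obtain ⟨x, k, b⟩ | ⟨a, b⟩ := φ
  · cases k <;> simp only [tau, mem_single, mem_exact, mem_below] <;> omega
  · cases a <;> simp only [tau, mem_single] <;> omega

/-- The two column tests of a frame are disjoint. -/
lemma sig_disjoint {h : ℕ} (φ : Frame h) (e : TE h) :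
    ¬ ((sig φ false).mem e = true ∧ (sig φ true).mem e = true) := by
  obtain ⟨x, k, b⟩ | ⟨a, b⟩ := φ
  · cases k <;> simp only [sig, mem_single, mem_exact, mem_below] <;> omega
  · cases a <;> simp only [sig, mem_single] <;> omega

/-- The core of the safety of `Z` frames. -/
lemma z_core {h : ℕ} {r1 r2 c1 c2 : TE h} (hr : r1 < r2) (hc : c1 < c2)
    (v11 : val r1 c1 = false) (v12 : val r1 c2 = true) (v21 : val r2 c1 = false)
    (v22 : val r2 c2 = false) (hl1 : r1.lev < r2.lev) (hl2 : c2.lev < r2.lev)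
    (hl3 : r2.lev = c1.lev)
    (hlab : (r2.lab = .m ∧ c1.lab = .a) ∨ (r2.lab = .p ∧ c1.lab = .m)) :
    r2.nd = c1.nd ∧
      ((lo r2.nd ≤ lo r1.nd ∧ hi r1.nd ≤ mid r2.nd ∧ lo r2.nd ≤ lo c2.nd ∧ hi c2.nd ≤ mid r2.nd) ∨
       (mid r2.nd ≤ lo r1.nd ∧ hi r1.nd ≤ hi r2.nd ∧ mid r2.nd ≤ lo c2.nd ∧
          hi c2.nd ≤ hi r2.nd)) := by
  simp only [TE.lev] at hl1 hl2 hl3
  have F1 := TE.lo_lt_hi_of_lt hr
  have F2 := TE.lo_lt_hi_of_lt hc
  have F3 := val_false_not v21
  have F4 := val_false_not v22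
  have F5 := val_false_not v11
  have x1 := lo_lt_mid r1.nd
  have x2 := mid_lt_hi r1.nd
  have y1 := lo_lt_mid c2.nd
  have y2 := mid_lt_hi c2.nd
  have u1 := lo_lt_mid r2.nd
  have u2 := mid_lt_hi r2.nd
  have w1 := lo_lt_mid c1.nd
  have w2 := mid_lt_hi c1.nd
  have F6 : hi c2.nd ≤ lo r1.nd ∨ r1.nd = c2.nd := by
    rcases val_true_cases v12 with h | ⟨h, _⟩
    · exact Or.inl h
    · exact Or.inr h
  have huw : r2.nd = c1.nd := by
    rcases laminar r2.nd c1.nd with h | h | h | ⟨hd, _⟩ | ⟨hd, _⟩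
    · exfalso
      rcases F6 with h6 | h6
      · omega
      · rw [← h6] at F2
        rcases laminar r1.nd c1.nd with g | g | g | ⟨hd', g1, g2, g3⟩ | ⟨hd', _⟩
        · omega
        · omega
        · rw [g] at hl1
          omega
        · omega
        · omega
    · exact absurd h F3
    · exact h
    · omega
    · omega
  refine ⟨huw, ?_⟩
  rw [← huw] at F5 F3
  have hL1 := laminar r1.nd r2.nd
  have hL2 := laminar c2.nd r2.nd
  rcases hlab with ⟨hla, hlb⟩ | ⟨hla, hlb⟩
  · have G1 : ¬ mid r2.nd ≤ lo r1.nd := fun g =>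
      absurd (TE.m_lt_right hla g) (not_lt.mpr hr.le)
    left
    rcases hL1 with h | h | h | ⟨hd, g1, g2, g3⟩ | ⟨hd, _⟩
    · exfalso
      rcases F6 with h6 | h6
      · omega
      · rw [← h6] at F4; omega
    · omega
    · rw [h] at hl1; omega
    · have g4 : hi r1.nd ≤ mid r2.nd := by omega
      rcases hL2 with k | k | k | ⟨hd2, k1, k2, k3⟩ | ⟨hd2, _⟩
      · omega
      · exfalso
        rcases F6 with h6 | h6
        · omega
        · rw [h6] at g4; omega
      · rw [k] at hl2; omega
      · rcases k3 with k3 | k3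
        · exact ⟨g1, g4, k1, k3⟩
        · exfalso
          rcases F6 with h6 | h6
          · omega
          · rw [h6] at g4; omega
      · omega
    · omega
  · have G1 : ¬ hi c2.nd ≤ mid r2.nd := fun g => by
      rw [huw] at g
      exact absurd (TE.left_lt_m hlb g) (not_lt.mpr hc.le)
    right
    rcases hL2 with k | k | k | ⟨hd2, k1, k2, k3⟩ | ⟨hd2, _⟩
    · omega
    · exfalso
      rcases F6 with h6 | h6
      · omega
      · rw [← h6] at k; omega
    · rw [k] at hl2; omega
    · have k4 : mid r2.nd ≤ lo c2.nd := by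
        rcases k3 with k3 | k3
        · omega
        · exact k3
      rcases hL1 with h | h | h | ⟨hd, g1, g2, g3⟩ | ⟨hd, _⟩
      · exfalso
        rcases F6 with h6 | h6
        · omega
        · rw [h6] at h; omega
      · omega
      · rw [h] at hl1; omega
      · rcases g3 with g3 | g3
        · exfalso
          rcases F6 with h6 | h6
          · omega
          · rw [h6] at g3; omega
        · exact ⟨g3, g2, k4, k2⟩
      · omega
    · omega

/-- The core of the safety of `O` frames. -/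
lemma o_core {h : ℕ} {r1 r2 c1 c2 : TE h} (hr : r1 < r2) (hc : c1 < c2)
    (v12 : val r1 c2 = true) (v21 : val r2 c1 = false)
    (hl1 : r2.lev < r1.lev) (hl2 : c1.lev < r1.lev) (hl3 : r1.lev = c2.lev)
    (hlab : (r1.lab = .a ∧ c2.lab = .m) ∨ (r1.lab = .m ∧ c2.lab = .p)) :
    r1.nd = c2.nd ∧
      ((lo r1.nd ≤ lo r2.nd ∧ hi r2.nd ≤ mid r1.nd ∧ lo r1.nd ≤ lo c1.nd ∧ hi c1.nd ≤ mid r1.nd) ∨
       (mid r1.nd ≤ lo r2.nd ∧ hi r2.nd ≤ hi r1.nd ∧ mid r1.nd ≤ lo c1.nd ∧
          hi c1.nd ≤ hi r1.nd)) := by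
  have F1 := TE.lo_lt_hi_of_lt hr
  have F2 := TE.lo_lt_hi_of_lt hc
  have F3 := val_false_not v21
  have x1 := lo_lt_mid r2.nd
  have x2 := mid_lt_hi r2.nd
  have y1 := lo_lt_mid c1.nd
  have y2 := mid_lt_hi c1.nd
  have u1 := lo_lt_mid r1.nd
  have u2 := mid_lt_hi r1.nd
  have w1 := lo_lt_mid c2.nd
  have w2 := mid_lt_hi c2.nd
  simp only [TE.lev] at hl1 hl2 hl3
  have hL1 := laminar r2.nd r1.nd
  have huw : r1.nd = c2.nd := by
    rcases val_true_cases v12 with h | ⟨h, _⟩
    · exfalso
      have hL2 := laminar c1.nd c2.nd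
      rcases hL2 with k | k | k | ⟨hd2, k1, k2, k3⟩ | ⟨hd2, _⟩
      · rcases hL1 with g | g | g | ⟨hd, g1, g2, g3⟩ | ⟨hd, _⟩ <;> first | omega | skip
        rw [g] at hl1; omega
      · omega
      · rw [k] at hl2; omega
      · rcases hL1 with g | g | g | ⟨hd, g1, g2, g3⟩ | ⟨hd, _⟩ <;> first | omega | skip
        rw [g] at hl1; omega
      · omega
    · exact h
  refine ⟨huw, ?_⟩
  rw [← huw] at F2
  have hL2 := laminar c1.nd r1.nd
  rcases hlab with ⟨hla, hlb⟩ | ⟨hla, hlb⟩
  · have G1 : ¬ mid r1.nd ≤ lo c1.nd := fun g => by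
      rw [huw] at g
      exact absurd (TE.m_lt_right hlb g) (not_lt.mpr hc.le)
    left
    rcases hL2 with k | k | k | ⟨hd2, k1, k2, k3⟩ | ⟨hd2, _⟩
    · rcases hL1 with g | g | g | ⟨hd, g1, g2, g3⟩ | ⟨hd, _⟩ <;> first | omega | skip
      rw [g] at hl1; omega
    · omega
    · rw [k] at hl2; omega
    · have k4 : hi c1.nd ≤ mid r1.nd := by
        rcases k3 with k3 | k3
        · exact k3
        · omega
      rcases hL1 with g | g | g | ⟨hd, g1, g2, g3⟩ | ⟨hd, _⟩
      · omega
      · omega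
      · rw [g] at hl1; omega
      · rcases g3 with g3 | g3
        · exact ⟨g1, g3, k1, k4⟩
        · omega
      · omega
    · omega
  · have G1 : ¬ hi r2.nd ≤ mid r1.nd := fun g =>
      absurd (TE.left_lt_m hla g) (not_lt.mpr hr.le)
    right
    rcases hL1 with g | g | g | ⟨hd, g1, g2, g3⟩ | ⟨hd, _⟩
    · omega
    · rcases hL2 with k | k | k | ⟨hd2, k1, k2, k3⟩ | ⟨hd2, _⟩ <;> first | omega | skip
      rw [k] at hl2; omega
    · rw [g] at hl1; omega
    · have g4 : mid r1.nd ≤ lo r2.nd := by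
        rcases g3 with g3 | g3
        · omega
        · exact g3
      rcases hL2 with k | k | k | ⟨hd2, k1, k2, k3⟩ | ⟨hd2, _⟩
      · omega
      · omega
      · rw [k] at hl2; omega
      · rcases k3 with k3 | k3
        · omega
        · exact ⟨g4, g2, k3, k2⟩
      · omega
    · omega

/-- A node one level below `u` inside a half fills that half. -/
lemma half_fill {h : ℕ} {x u : Nd h} (hd : x.d + 1 = u.d) {A : ℕ}
    (hA : A + 2 ^ u.d ≤ hi u ∨ True) (h1 : A ≤ lo x) (h2 : hi x ≤ A + 2 ^ u.d) :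
    lo x = A ∧ hi x = A + 2 ^ u.d := by
  have e : 2 ^ u.d = 2 * 2 ^ x.d := by rw [← hd, pow_succ]; ring
  have := hi_eq x
  omega

/-- Two nodes one level below `u` in the same half coincide. -/
lemma half_same {h : ℕ} {x y u : Nd h} (hx : x.d + 1 = u.d) (hy : y.d + 1 = u.d) {A : ℕ}
    (h1 : A ≤ lo x) (h2 : hi x ≤ A + 2 ^ u.d) (h3 : A ≤ lo y) (h4 : hi y ≤ A + 2 ^ u.d) :
    x = y := by
  obtain ⟨a1, a2⟩ := half_fill hx (Or.inr trivial) h1 h2
  obtain ⟨b1, b2⟩ := half_fill hy (Or.inr trivial) h3 h4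
  have x1 := lo_lt_mid x
  have x2 := mid_lt_hi x
  rcases laminar x y with g | g | g | ⟨hd, _⟩ | ⟨hd, _⟩
  · omega
  · omega
  · exact g
  · omega
  · omega

/-- Safety of designated tuples: the only cells `(r1, c2)` are the leaf cells. -/
theorem frame_safe {h : ℕ} (φ : Frame h) {r1 r2 c1 c2 : TE h} (hr : r1 < r2) (hc : c1 < c2)
    (v11 : val r1 c1 = false) (v12 : val r1 c2 = true) (v21 : val r2 c1 = false)
    (v22 : val r2 c2 = false) (t1 : (tau φ false).mem r1 = true) (t2 : (tau φ true).mem r2 = true)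
    (s1 : (sig φ false).mem c1 = true) (s2 : (sig φ true).mem c2 = true) :
    r1.lev = 0 ∧ r1.nd = c2.nd ∧ r1.lab = .a ∧ c2.lab = .m := by
  -- Z frames at level at least two
  have zcase : ∀ (b : Bool) (d : ℕ), r2.lev = d + 2 → r2.lab = rZ b → c1.lev = d + 2 →
      c1.lab = cZ b → r1.lev < d + 2 → c2.lev < d + 2 → r2.nd = c1.nd ∧
      ((lo r2.nd ≤ lo r1.nd ∧ hi r1.nd ≤ mid r2.nd ∧ lo r2.nd ≤ lo c2.nd ∧ hi c2.nd ≤ mid r2.nd) ∨
       (mid r2.nd ≤ lo r1.nd ∧ hi r1.nd ≤ hi r2.nd ∧ mid r2.nd ≤ lo c2.nd ∧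
          hi c2.nd ≤ hi r2.nd)) := by
    intro b d h1 h2 h3 h4 h5 h6
    refine z_core hr hc v11 v12 v21 v22 (by omega) (by omega) (by omega) ?_
    cases b
    · left; exact ⟨by simpa [rZ] using h2, by simpa [cZ] using h4⟩
    · right; exact ⟨by simpa [rZ] using h2, by simpa [cZ] using h4⟩
  have ocase : ∀ (b : Bool) (d : ℕ), r1.lev = d + 2 → r1.lab = rO b → c2.lev = d + 2 →
      c2.lab = cO b → r2.lev < d + 2 → c1.lev < d + 2 → r1.nd = c2.nd ∧
      ((lo r1.nd ≤ lo r2.nd ∧ hi r2.nd ≤ mid r1.nd ∧ lo r1.nd ≤ lo c1.nd ∧ hi c1.nd ≤ mid r1.nd) ∨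
       (mid r1.nd ≤ lo r2.nd ∧ hi r2.nd ≤ hi r1.nd ∧ mid r1.nd ≤ lo c1.nd ∧
          hi c1.nd ≤ hi r1.nd)) := by
    intro b d h1 h2 h3 h4 h5 h6
    refine o_core hr hc v12 v21 (by omega) (by omega) (by omega) ?_
    cases b
    · left; exact ⟨by simpa [rO] using h2, by simpa [cO] using h4⟩
    · right; exact ⟨by simpa [rO] using h2, by simpa [cO] using h4⟩
  have x1 := lo_lt_mid r1.nd
  have x2 := mid_lt_hi r1.nd
  have y1 := lo_lt_mid c2.nd
  have y2 := mid_lt_hi c2.nd
  obtain ⟨x, k, b⟩ | ⟨a, b⟩ := φ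
  · cases k
    · -- A
      simp only [tau, sig, mem_single, mem_exact, mem_below] at t1 t2 s1 s2
      obtain ⟨t2a, t2b⟩ := t2
      obtain ⟨s1a, s1b⟩ := s1
      obtain ⟨_, hh⟩ := zcase b x.val t2a t2b s1a s1b (by omega) (by omega)
      simp only [TE.lev] at t1 t2a s2
      exfalso
      have hne : r1.nd ≠ c2.nd := fun g => by rw [g] at t1; omega
      have hm1 := mid_eq r2.nd
      have hm2 := hi_eq r2.nd
      rcases hh with ⟨g1, g2, g3, g4⟩ | ⟨g1, g2, g3, g4⟩
      · have e := half_fill (x := r1.nd) (u := r2.nd) (by omega) (Or.inr trivial) g1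
          (by rw [← mid_eq]; exact g2)
        rw [val_other hne (by omega)] at v12; exact absurd v12 (by simp)
      · have e := half_fill (x := r1.nd) (u := r2.nd) (A := mid r2.nd) (by omega) (Or.inr trivial) g1
          (by rw [mid_eq, add_assoc, ← two_mul, ← hi_eq]; exact g2)
        rw [val_other hne (by omega)] at v12; exact absurd v12 (by simp)
    · -- B
      simp only [tau, sig, mem_single, mem_exact, mem_below] at t1 t2 s1 s2
      obtain ⟨t2a, t2b⟩ := t2
      obtain ⟨s1a, s1b⟩ := s1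
      obtain ⟨_, hh⟩ := zcase b x.val t2a t2b s1a s1b (by omega) (by omega)
      simp only [TE.lev] at t1 t2a s2
      exfalso
      have hne : r1.nd ≠ c2.nd := fun g => by rw [g] at t1; omega
      have hm1 := mid_eq r2.nd
      have hm2 := hi_eq r2.nd
      rcases hh with ⟨g1, g2, g3, g4⟩ | ⟨g1, g2, g3, g4⟩
      · have e := half_fill (x := c2.nd) (u := r2.nd) (by omega) (Or.inr trivial) g3
          (by rw [← mid_eq]; exact g4)
        rw [val_other hne (by omega)] at v12; exact absurd v12 (by simp)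
      · have e := half_fill (x := c2.nd) (u := r2.nd) (A := mid r2.nd) (by omega) (Or.inr trivial) g3
          (by rw [mid_eq, add_assoc, ← two_mul, ← hi_eq]; exact g4)
        rw [val_other hne (by omega)] at v12; exact absurd v12 (by simp)
    · -- C1
      simp only [tau, sig, mem_single] at t1 t2 s1 s2
      obtain ⟨t1a, t1b⟩ := t1
      obtain ⟨t2a, t2b⟩ := t2
      obtain ⟨s1a, s1b⟩ := s1
      obtain ⟨s2a, s2b⟩ := s2
      obtain ⟨_, hh⟩ := zcase b x.val t2a t2b s1a s1b (by omega) (by omega)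
      simp only [TE.lev] at t1a t2a s2a
      exfalso
      have hn : r1.nd = c2.nd := by
        rcases hh with ⟨g1, g2, g3, g4⟩ | ⟨g1, g2, g3, g4⟩
        · exact half_same (u := r2.nd) (by omega) (by omega) g1 (by rw [← mid_eq]; exact g2) g3
            (by rw [← mid_eq]; exact g4)
        · exact half_same (u := r2.nd) (A := mid r2.nd) (by omega) (by omega) g1
            (by rw [mid_eq, add_assoc, ← two_mul, ← hi_eq]; exact g2) g3
            (by rw [mid_eq, add_assoc, ← two_mul, ← hi_eq]; exact g4)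
      rw [val_same hn, t1b, s2b] at v12
      simp [tbl] at v12
    · -- C2
      simp only [tau, sig, mem_single] at t1 t2 s1 s2
      obtain ⟨t1a, t1b⟩ := t1
      obtain ⟨t2a, t2b⟩ := t2
      obtain ⟨s1a, s1b⟩ := s1
      obtain ⟨s2a, s2b⟩ := s2
      obtain ⟨_, hh⟩ := zcase b x.val t2a t2b s1a s1b (by omega) (by omega)
      simp only [TE.lev] at t1a t2a s2a
      exfalso
      have hn : r1.nd = c2.nd := by
        rcases hh with ⟨g1, g2, g3, g4⟩ | ⟨g1, g2, g3, g4⟩
        · exact half_same (u := r2.nd) (by omega) (by omega) g1 (by rw [← mid_eq]; exact g2) g3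
            (by rw [← mid_eq]; exact g4)
        · exact half_same (u := r2.nd) (A := mid r2.nd) (by omega) (by omega) g1
            (by rw [mid_eq, add_assoc, ← two_mul, ← hi_eq]; exact g2) g3
            (by rw [mid_eq, add_assoc, ← two_mul, ← hi_eq]; exact g4)
      rw [val_same hn, t1b, s2b] at v12
      simp [tbl] at v12
    · -- O1
      simp only [tau, sig, mem_single] at t1 t2 s1 s2
      obtain ⟨t1a, t1b⟩ := t1
      obtain ⟨t2a, t2b⟩ := t2
      obtain ⟨s1a, s1b⟩ := s1
      obtain ⟨s2a, s2b⟩ := s2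
      obtain ⟨_, hh⟩ := ocase b x.val t1a t1b s2a s2b (by omega) (by omega)
      simp only [TE.lev] at t1a t2a s1a s2a
      exfalso
      have hn : r2.nd = c1.nd := by
        rcases hh with ⟨g1, g2, g3, g4⟩ | ⟨g1, g2, g3, g4⟩
        · exact half_same (u := r1.nd) (by omega) (by omega) g1 (by rw [← mid_eq]; exact g2) g3
            (by rw [← mid_eq]; exact g4)
        · exact half_same (u := r1.nd) (A := mid r1.nd) (by omega) (by omega) g1
            (by rw [mid_eq, add_assoc, ← two_mul, ← hi_eq]; exact g2) g3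
            (by rw [mid_eq, add_assoc, ← two_mul, ← hi_eq]; exact g4)
      rw [val_same hn, t2b, s1b] at v21
      simp [tbl] at v21
    · -- O2
      simp only [tau, sig, mem_single] at t1 t2 s1 s2
      obtain ⟨t1a, t1b⟩ := t1
      obtain ⟨t2a, t2b⟩ := t2
      obtain ⟨s1a, s1b⟩ := s1
      obtain ⟨s2a, s2b⟩ := s2
      obtain ⟨_, hh⟩ := ocase b x.val t1a t1b s2a s2b (by omega) (by omega)
      simp only [TE.lev] at t1a t2a s1a s2a
      exfalso
      have hn : r2.nd = c1.nd := by
        rcases hh with ⟨g1, g2, g3, g4⟩ | ⟨g1, g2, g3, g4⟩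
        · exact half_same (u := r1.nd) (by omega) (by omega) g1 (by rw [← mid_eq]; exact g2) g3
            (by rw [← mid_eq]; exact g4)
        · exact half_same (u := r1.nd) (A := mid r1.nd) (by omega) (by omega) g1
            (by rw [mid_eq, add_assoc, ← two_mul, ← hi_eq]; exact g2) g3
            (by rw [mid_eq, add_assoc, ← two_mul, ← hi_eq]; exact g4)
      rw [val_same hn, t2b, s1b] at v21
      simp [tbl] at v21
  · cases a
    · -- Z at level one
      simp only [tau, sig, mem_single] at t1 t2 s1 s2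
      obtain ⟨t1a, t1b⟩ := t1
      obtain ⟨t2a, t2b⟩ := t2
      obtain ⟨s1a, s1b⟩ := s1
      obtain ⟨s2a, s2b⟩ := s2
      have hlabz : (r2.lab = .m ∧ c1.lab = .a) ∨ (r2.lab = .p ∧ c1.lab = .m) := by
        cases b
        · left; exact ⟨by simpa [rZ] using t2b, by simpa [cZ] using s1b⟩
        · right; exact ⟨by simpa [rZ] using t2b, by simpa [cZ] using s1b⟩
      obtain ⟨_, hh⟩ := z_core hr hc v11 v12 v21 v22 (by omega) (by omega) (by omega) hlabz
      simp only [TE.lev] at t1a t2a s1a s2a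
      have hn : r1.nd = c2.nd := by
        rcases hh with ⟨g1, g2, g3, g4⟩ | ⟨g1, g2, g3, g4⟩
        · exact half_same (u := r2.nd) (by omega) (by omega) g1 (by rw [← mid_eq]; exact g2) g3
            (by rw [← mid_eq]; exact g4)
        · exact half_same (u := r2.nd) (A := mid r2.nd) (by omega) (by omega) g1
            (by rw [mid_eq, add_assoc, ← two_mul, ← hi_eq]; exact g2) g3
            (by rw [mid_eq, add_assoc, ← two_mul, ← hi_eq]; exact g4)
      exact ⟨t1a, hn, t1b, s2b⟩
    · -- O at level one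
      simp only [tau, sig, mem_single] at t1 t2 s1 s2
      obtain ⟨t1a, t1b⟩ := t1
      obtain ⟨t2a, t2b⟩ := t2
      obtain ⟨s1a, s1b⟩ := s1
      obtain ⟨s2a, s2b⟩ := s2
      have hlabo : (r1.lab = .a ∧ c2.lab = .m) ∨ (r1.lab = .m ∧ c2.lab = .p) := by
        cases b
        · left; exact ⟨by simpa [rO] using t1b, by simpa [cO] using s2b⟩
        · right; exact ⟨by simpa [rO] using t1b, by simpa [cO] using s2b⟩
      obtain ⟨_, hh⟩ := o_core hr hc v12 v21 (by omega) (by omega) (by omega) hlabo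
      simp only [TE.lev] at t1a t2a s1a s2a
      exfalso
      have hn : r2.nd = c1.nd := by
        rcases hh with ⟨g1, g2, g3, g4⟩ | ⟨g1, g2, g3, g4⟩
        · exact half_same (u := r1.nd) (by omega) (by omega) g1 (by rw [← mid_eq]; exact g2) g3
            (by rw [← mid_eq]; exact g4)
        · exact half_same (u := r1.nd) (A := mid r1.nd) (by omega) (by omega) g1
            (by rw [mid_eq, add_assoc, ← two_mul, ← hi_eq]; exact g2) g3
            (by rw [mid_eq, add_assoc, ← two_mul, ← hi_eq]; exact g4)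
      rw [val_same hn, t2b, s1b] at v21
      simp [tbl] at v21

end Crest.Agent.Lib.S66
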