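import Crest.Agent.Lib.S66.Frames

/-!
# S0066: the rows, columns and the matrix `Am`; rigidity of the core pattern
-/

namespace Crest.Agent.Lib.S66

/-- Rows of the matrix. -/
inductive Row (h dr : ℕ)
  | F (φ : Frame h) (b : Bool) (j : Fin (5 * 2 ^ h))
  | T (e : TE h)
  | D (k : Fin dr)

/-- Columns of the matrix. -/
inductive Col (h dc : ℕ)
  | N (j : Fin (5 * 2 ^ h))
  | G (φ : Frame h) (b : Bool) (j : Fin (5 * 2 ^ h))
  | T (e : TE h)
  | D (k : Fin dc)

/-- Code of a frame. -/
noncomputable def code {h : ℕ} (φ : Frame h) : ℕ := (Fintype.equivFin (Frame h) φ).val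

lemma code_inj {h : ℕ} {φ ψ : Frame h} (he : code φ = code ψ) : φ = ψ := by
  have : Fintype.equivFin (Frame h) φ = Fintype.equivFin (Frame h) ψ := Fin.ext he
  exact (Fintype.equivFin (Frame h)).injective this

/-- Order key of a row. -/
noncomputable def Row.key {h dr : ℕ} : Row h dr → ℕ ×ₗ ℕ ×ₗ ℕ ×ₗ ℕ ×ₗ ℕ ×ₗ ℕ
  | .F φ b j => toLex (0, toLex (rkF (sig φ b), toLex (auxF (sig φ b), toLex (b.toNat,
      toLex (code φ, j.val)))))
  | .T e => toLex (1, e.key)
  | .D k => toLex (2, toLex (k.val, toLex (0, toLex (0, toLex (0, 0)))))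

/-- Order key of a column. -/
noncomputable def Col.key {h dc : ℕ} : Col h dc → ℕ ×ₗ ℕ ×ₗ ℕ ×ₗ ℕ ×ₗ ℕ ×ₗ ℕ
  | .N j => toLex (0, toLex (j.val, toLex (0, toLex (0, toLex (0, 0)))))
  | .G φ b j => toLex (1, toLex (rkG (tau φ b), toLex (auxG h (tau φ b), toLex (b.toNat,
      toLex (code φ, j.val)))))
  | .T e => toLex (2, e.key)
  | .D k => toLex (3, toLex (k.val, toLex (0, toLex (0, toLex (0, 0)))))

lemma Row.key_inj {h dr : ℕ} : Function.Injective (Row.key (h := h) (dr := dr)) := by
  intro r r' he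
  cases r with
  | F φ b j =>
    cases r' with
    | F φ' b' j' =>
      simp only [Row.key, EmbeddingLike.apply_eq_iff_eq, Prod.mk.injEq] at he
      obtain ⟨-, -, -, h4, h5, h6⟩ := he
      have hb : b = b' := by cases b <;> cases b' <;> simp_all
      have hφ : φ = φ' := code_inj h5
      have hj : j = j' := Fin.ext h6
      subst hb; subst hφ; subst hj; rfl
    | T e => simp [Row.key] at he
    | D k => simp [Row.key] at he
  | T e =>
    cases r' with
    | F φ' b' j' => simp [Row.key] at he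
    | T e' =>
      simp only [Row.key, EmbeddingLike.apply_eq_iff_eq, Prod.mk.injEq, true_and] at he
      rw [TE.key_inj he]
    | D k => simp [Row.key] at he
  | D k =>
    cases r' with
    | F φ' b' j' => simp [Row.key] at he
    | T e' => simp [Row.key] at he
    | D k' =>
      simp only [Row.key, EmbeddingLike.apply_eq_iff_eq, Prod.mk.injEq] at he
      have : k = k' := Fin.ext he.2.1
      rw [this]

lemma Col.key_inj {h dc : ℕ} : Function.Injective (Col.key (h := h) (dc := dc)) := by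
  intro r r' he
  cases r with
  | N j =>
    cases r' with
    | N j' =>
      simp only [Col.key, EmbeddingLike.apply_eq_iff_eq, Prod.mk.injEq] at he
      have : j = j' := Fin.ext he.2.1
      rw [this]
    | G φ' b' j' => simp [Col.key] at he
    | T e => simp [Col.key] at he
    | D k => simp [Col.key] at he
  | G φ b j =>
    cases r' with
    | N j' => simp [Col.key] at he
    | G φ' b' j' =>
      simp only [Col.key, EmbeddingLike.apply_eq_iff_eq, Prod.mk.injEq] at he
      obtain ⟨-, -, -, h4, h5, h6⟩ := he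
      have hb : b = b' := by cases b <;> cases b' <;> simp_all
      have hφ : φ = φ' := code_inj h5
      have hj : j = j' := Fin.ext h6
      subst hb; subst hφ; subst hj; rfl
    | T e => simp [Col.key] at he
    | D k => simp [Col.key] at he
  | T e =>
    cases r' with
    | N j' => simp [Col.key] at he
    | G φ' b' j' => simp [Col.key] at he
    | T e' =>
      simp only [Col.key, EmbeddingLike.apply_eq_iff_eq, Prod.mk.injEq, true_and] at he
      rw [TE.key_inj he]
    | D k => simp [Col.key] at he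
  | D k =>
    cases r' with
    | N j' => simp [Col.key] at he
    | G φ' b' j' => simp [Col.key] at he
    | T e' => simp [Col.key] at he
    | D k' =>
      simp only [Col.key, EmbeddingLike.apply_eq_iff_eq, Prod.mk.injEq] at he
      have : k = k' := Fin.ext he.2.1
      rw [this]

noncomputable instance instLinearOrderRow (h dr : ℕ) : LinearOrder (Row h dr) :=
  LinearOrder.lift' Row.key Row.key_inj

noncomputable instance instLinearOrderCol (h dc : ℕ) : LinearOrder (Col h dc) :=
  LinearOrder.lift' Col.key Col.key_inj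

lemma Row.lt_def {h dr : ℕ} {r r' : Row h dr} : r < r' ↔ r.key < r'.key := Iff.rfl
lemma Col.lt_def {h dc : ℕ} {r r' : Col h dc} : r < r' ↔ r.key < r'.key := Iff.rfl

section order
variable {h dr dc : ℕ}

@[simp] lemma Row.F_lt_T {φ : Frame h} {b : Bool} {j} {e : TE h} :
    (Row.F φ b j : Row h dr) < Row.T e := by
  rw [Row.lt_def]; simp only [Row.key]
  exact Prod.Lex.toLex_lt_toLex.mpr (Or.inl (by norm_num))

@[simp] lemma Row.T_lt_D {e : TE h} {k : Fin dr} : (Row.T e : Row h dr) < Row.D k := by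
  rw [Row.lt_def]; simp only [Row.key]
  exact Prod.Lex.toLex_lt_toLex.mpr (Or.inl (by norm_num))

@[simp] lemma Row.F_lt_D {φ : Frame h} {b : Bool} {j} {k : Fin dr} :
    (Row.F φ b j : Row h dr) < Row.D k := by
  rw [Row.lt_def]; simp only [Row.key]
  exact Prod.Lex.toLex_lt_toLex.mpr (Or.inl (by norm_num))

lemma Row.T_lt_T {e e' : TE h} : (Row.T e : Row h dr) < Row.T e' ↔ e < e' := by
  rw [Row.lt_def]; simp only [Row.key, TE.lt_def]
  rw [Prod.Lex.toLex_lt_toLex]
  constructor
  · rintro (h1 | ⟨_, h1⟩)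
    · exact absurd h1 (lt_irrefl _)
    · exact h1
  · intro h1
    exact Or.inr ⟨rfl, h1⟩

lemma Row.D_lt_D {k k' : Fin dr} : (Row.D k : Row h dr) < Row.D k' ↔ k < k' := by
  rw [Row.lt_def]; simp only [Row.key]
  rw [Prod.Lex.toLex_lt_toLex]
  constructor
  · rintro (h1 | ⟨_, h1⟩)
    · exact absurd h1 (lt_irrefl _)
    · rw [Prod.Lex.toLex_lt_toLex] at h1
      rcases h1 with h1 | ⟨_, h1⟩
      · exact h1
      · exact absurd h1 (lt_irrefl _)
  · intro h1
    exact Or.inr ⟨rfl, Prod.Lex.toLex_lt_toLex.mpr (Or.inl h1)⟩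

@[simp] lemma Col.N_lt_G {φ : Frame h} {b : Bool} {j j'} :
    (Col.N j : Col h dc) < Col.G φ b j' := by
  rw [Col.lt_def]; simp only [Col.key]
  exact Prod.Lex.toLex_lt_toLex.mpr (Or.inl (by norm_num))

@[simp] lemma Col.G_lt_T {φ : Frame h} {b : Bool} {j} {e : TE h} :
    (Col.G φ b j : Col h dc) < Col.T e := by
  rw [Col.lt_def]; simp only [Col.key]
  exact Prod.Lex.toLex_lt_toLex.mpr (Or.inl (by norm_num))

@[simp] lemma Col.T_lt_D {e : TE h} {k : Fin dc} : (Col.T e : Col h dc) < Col.D k := by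
  rw [Col.lt_def]; simp only [Col.key]
  exact Prod.Lex.toLex_lt_toLex.mpr (Or.inl (by norm_num))

@[simp] lemma Col.N_lt_T {j} {e : TE h} : (Col.N j : Col h dc) < Col.T e := by
  rw [Col.lt_def]; simp only [Col.key]
  exact Prod.Lex.toLex_lt_toLex.mpr (Or.inl (by norm_num))

@[simp] lemma Col.N_lt_D {j} {k : Fin dc} : (Col.N j : Col h dc) < Col.D k := by
  rw [Col.lt_def]; simp only [Col.key]
  exact Prod.Lex.toLex_lt_toLex.mpr (Or.inl (by norm_num))

@[simp] lemma Col.G_lt_D {φ : Frame h} {b : Bool} {j} {k : Fin dc} :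
    (Col.G φ b j : Col h dc) < Col.D k := by
  rw [Col.lt_def]; simp only [Col.key]
  exact Prod.Lex.toLex_lt_toLex.mpr (Or.inl (by norm_num))

lemma Col.T_lt_T {e e' : TE h} : (Col.T e : Col h dc) < Col.T e' ↔ e < e' := by
  rw [Col.lt_def]; simp only [Col.key, TE.lt_def]
  rw [Prod.Lex.toLex_lt_toLex]
  constructor
  · rintro (h1 | ⟨_, h1⟩)
    · exact absurd h1 (lt_irrefl _)
    · exact h1
  · intro h1
    exact Or.inr ⟨rfl, h1⟩

lemma Col.D_lt_D {k k' : Fin dc} : (Col.D k : Col h dc) < Col.D k' ↔ k < k' := by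
  rw [Col.lt_def]; simp only [Col.key]
  rw [Prod.Lex.toLex_lt_toLex]
  constructor
  · rintro (h1 | ⟨_, h1⟩)
    · exact absurd h1 (lt_irrefl _)
    · rw [Prod.Lex.toLex_lt_toLex] at h1
      rcases h1 with h1 | ⟨_, h1⟩
      · exact h1
      · exact absurd h1 (lt_irrefl _)
  · intro h1
    exact Or.inr ⟨rfl, Prod.Lex.toLex_lt_toLex.mpr (Or.inl h1)⟩

@[simp] lemma Row.not_T_lt_F {φ : Frame h} {b : Bool} {j} {e : TE h} :
    ¬ (Row.T e : Row h dr) < Row.F φ b j := not_lt.mpr Row.F_lt_T.le
@[simp] lemma Row.not_D_lt_T {e : TE h} {k : Fin dr} :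
    ¬ (Row.D k : Row h dr) < Row.T e := not_lt.mpr Row.T_lt_D.le
@[simp] lemma Row.not_D_lt_F {φ : Frame h} {b : Bool} {j} {k : Fin dr} :
    ¬ (Row.D k : Row h dr) < Row.F φ b j := not_lt.mpr Row.F_lt_D.le
@[simp] lemma Col.not_G_lt_N {φ : Frame h} {b : Bool} {j j'} :
    ¬ (Col.G φ b j : Col h dc) < Col.N j' := not_lt.mpr Col.N_lt_G.le
@[simp] lemma Col.not_T_lt_G {φ : Frame h} {b : Bool} {j} {e : TE h} :
    ¬ (Col.T e : Col h dc) < Col.G φ b j := not_lt.mpr Col.G_lt_T.le
@[simp] lemma Col.not_D_lt_T {e : TE h} {k : Fin dc} :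
    ¬ (Col.D k : Col h dc) < Col.T e := not_lt.mpr Col.T_lt_D.le
@[simp] lemma Col.not_T_lt_N {j} {e : TE h} :
    ¬ (Col.T e : Col h dc) < Col.N j := not_lt.mpr Col.N_lt_T.le
@[simp] lemma Col.not_D_lt_N {j} {k : Fin dc} :
    ¬ (Col.D k : Col h dc) < Col.N j := not_lt.mpr Col.N_lt_D.le
@[simp] lemma Col.not_D_lt_G {φ : Frame h} {b : Bool} {j} {k : Fin dc} :
    ¬ (Col.D k : Col h dc) < Col.G φ b j := not_lt.mpr Col.G_lt_D.le

/-- Order of frame rows: the rank of the test is monotone. -/
lemma Row.F_rank {φ ψ : Frame h} {b b' : Bool} {j j'}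
    (hlt : (Row.F φ b j : Row h dr) < Row.F ψ b' j') :
    rkF (sig φ b) < rkF (sig ψ b') ∨ (rkF (sig φ b) = rkF (sig ψ b') ∧
      auxF (sig φ b) ≤ auxF (sig ψ b')) := by
  rw [Row.lt_def] at hlt
  simp only [Row.key] at hlt
  rw [Prod.Lex.toLex_lt_toLex] at hlt
  simp only [lt_self_iff_false, false_or, true_and] at hlt
  rw [Prod.Lex.toLex_lt_toLex] at hlt
  simp only at hlt
  rcases hlt with hlt | ⟨h1, hlt⟩
  · exact Or.inl hlt
  · rw [Prod.Lex.toLex_lt_toLex] at hlt
    simp only at hlt
    rcases hlt with hlt | ⟨h2, _⟩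
    · exact Or.inr ⟨h1, hlt.le⟩
    · exact Or.inr ⟨h1, h2.le⟩

/-- Order of frame columns: the rank of the test is monotone. -/
lemma Col.G_rank {φ ψ : Frame h} {b b' : Bool} {j j'}
    (hlt : (Col.G φ b j : Col h dc) < Col.G ψ b' j') :
    rkG (tau φ b) < rkG (tau ψ b') ∨ (rkG (tau φ b) = rkG (tau ψ b') ∧
      auxG h (tau φ b) ≤ auxG h (tau ψ b')) := by
  rw [Col.lt_def] at hlt
  simp only [Col.key] at hlt
  rw [Prod.Lex.toLex_lt_toLex] at hlt
  simp only [lt_self_iff_false, false_or, true_and] at hlt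
  rw [Prod.Lex.toLex_lt_toLex] at hlt
  simp only at hlt
  rcases hlt with hlt | ⟨h1, hlt⟩
  · exact Or.inl hlt
  · rw [Prod.Lex.toLex_lt_toLex] at hlt
    simp only at hlt
    rcases hlt with hlt | ⟨h2, _⟩
    · exact Or.inr ⟨h1, hlt.le⟩
    · exact Or.inr ⟨h1, h2.le⟩

/-- Same frame: bit `false` rows precede bit `true` rows. -/
lemma Row.F_false_lt_true (φ : Frame h) (j j') :
    (Row.F φ false j : Row h dr) < Row.F φ true j' := by
  rw [Row.lt_def]; simp only [Row.key]
  refine Prod.Lex.toLex_lt_toLex.mpr (Or.inr ⟨rfl, ?_⟩)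
  rw [Prod.Lex.toLex_lt_toLex]
  rcases sig_rank φ with h1 | ⟨h1, h2⟩
  · exact Or.inl h1
  · refine Or.inr ⟨h1, ?_⟩
    rw [Prod.Lex.toLex_lt_toLex]
    refine Or.inr ⟨h2, ?_⟩
    rw [Prod.Lex.toLex_lt_toLex]
    exact Or.inl (by simp)

/-- Same frame: bit `false` columns precede bit `true` columns. -/
lemma Col.G_false_lt_true (φ : Frame h) (j j') :
    (Col.G φ false j : Col h dc) < Col.G φ true j' := by
  rw [Col.lt_def]; simp only [Col.key]
  refine Prod.Lex.toLex_lt_toLex.mpr (Or.inr ⟨rfl, ?_⟩)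
  rw [Prod.Lex.toLex_lt_toLex]
  rcases tau_rank φ with h1 | ⟨h1, h2⟩
  · exact Or.inl h1
  · refine Or.inr ⟨h1, ?_⟩
    rw [Prod.Lex.toLex_lt_toLex]
    refine Or.inr ⟨h2, ?_⟩
    rw [Prod.Lex.toLex_lt_toLex]
    exact Or.inl (by simp)

end order

/-- The frame block pattern `[[1,1],[0,1]]`. -/
def WW (b b' : Bool) : Bool := !b || b'

/-- The matrix. -/
def Am {h dr dc : ℕ} (r : Row h dr) (c : Col h dc) : Bool :=
  open Classical in
  match r, c with
  | .F _ _ _, .N _ => true
  | .F φ b _, .G ψ b' _ => decide (φ = ψ) && WW b b'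
  | .F φ b _, .T e => (sig φ b).mem e
  | .F _ _ _, .D _ => false
  | .T _, .N _ => false
  | .T e, .G ψ b' _ => (tau ψ b').mem e
  | .T e, .T e' => val e e'
  | .T _, .D _ => false
  | .D _, _ => false

section am
variable {h dr dc : ℕ}

@[simp] lemma Am_F_N {φ : Frame h} {b j j'} : Am (Row.F φ b j : Row h dr) (Col.N j' : Col h dc) = true := rfl
lemma Am_F_G {φ ψ : Frame h} {b b' j j'} :
    Am (Row.F φ b j : Row h dr) (Col.G ψ b' j' : Col h dc) = true ↔ φ = ψ ∧ WW b b' = true := by
  simp [Am]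
@[simp] lemma Am_F_T {φ : Frame h} {b j} {e : TE h} :
    Am (Row.F φ b j : Row h dr) (Col.T e : Col h dc) = (sig φ b).mem e := rfl
@[simp] lemma Am_F_D {φ : Frame h} {b j} {k} :
    Am (Row.F φ b j : Row h dr) (Col.D k : Col h dc) = false := rfl
@[simp] lemma Am_T_N {e : TE h} {j} : Am (Row.T e : Row h dr) (Col.N j : Col h dc) = false := rfl
@[simp] lemma Am_T_G {e : TE h} {ψ : Frame h} {b j} :
    Am (Row.T e : Row h dr) (Col.G ψ b j : Col h dc) = (tau ψ b).mem e := rfl
@[simp] lemma Am_T_T {e e' : TE h} : Am (Row.T e : Row h dr) (Col.T e' : Col h dc) = val e e' := rfl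
@[simp] lemma Am_T_D {e : TE h} {k} : Am (Row.T e : Row h dr) (Col.D k : Col h dc) = false := rfl
@[simp] lemma Am_D {k} {c : Col h dc} : Am (Row.D k : Row h dr) c = false := by
  cases c <;> rfl

end am

/-- Rigidity: every embedding of the core pattern lands on a leaf cell. -/
theorem rigid {h dr dc : ℕ} {f1 f2 r1 r2 : Row h dr} {g0 g1 g2 c1 c2 : Col h dc}
    (hf : f1 < f2) (h2 : f2 < r1) (h3 : r1 < r2)
    (hg0 : g0 < g1) (hg1 : g1 < g2) (hg2 : g2 < c1) (hc : c1 < c2)
    (a00 : Am f1 g0 = true) (a01 : Am f1 g1 = true) (a02 : Am f1 g2 = true)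
    (a03 : Am f1 c1 = true) (_a04 : Am f1 c2 = false)
    (a10 : Am f2 g0 = true) (a11 : Am f2 g1 = false) (a12 : Am f2 g2 = true)
    (a13 : Am f2 c1 = false) (a14 : Am f2 c2 = true)
    (_a20 : Am r1 g0 = false) (a21 : Am r1 g1 = true) (_a22 : Am r1 g2 = false)
    (a23 : Am r1 c1 = false) (a24 : Am r1 c2 = true)
    (_a30 : Am r2 g0 = false) (_a31 : Am r2 g1 = false) (a32 : Am r2 g2 = true)
    (a33 : Am r2 c1 = false) (a34 : Am r2 c2 = false) :
    ∃ x y : TE h, r1 = Row.T x ∧ c2 = Col.T y ∧ x.lev = 0 ∧ x.nd = y.nd ∧ x.lab = .a ∧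
      y.lab = .m := by
  -- no dummy rows or columns in the core
  have nD : ∀ {r : Row h dr} {c : Col h dc}, Am r c = true → ∀ k, r ≠ Row.D k := by
    intro r c hrc k hk
    rw [hk, Am_D] at hrc
    exact absurd hrc (by simp)
  have nDc : ∀ {r : Row h dr} {c : Col h dc}, Am r c = true → ∀ k, c ≠ Col.D k := by
    intro r c hrc k hk
    subst hk
    cases r <;> simp at hrc
  -- Step 1: f2 is a frame row
  have step1 : ∃ φ b j, f2 = (Row.F φ b j : Row h dr) := by
    cases f2 with
    | F φ b j => exact ⟨φ, b, j, rfl⟩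
    | D k => exact absurd rfl (nD a10 k)
    | T e2 =>
      exfalso
      -- r1 is a tree row
      obtain ⟨e3, rfl⟩ : ∃ e3, r1 = Row.T e3 := by
        cases r1 with
        | F _ _ _ => simp at h2
        | T e => exact ⟨e, rfl⟩
        | D k => exact absurd rfl (nD a21 k)
      -- g0 is not in N
      have hg0N : ∀ j, g0 ≠ Col.N j := by
        intro j hj; subst hj; simp at a10
      -- g2 is not a tree column
      cases g2 with
      | D k => exact nDc a02 k rfl
      | T t2 =>
        obtain ⟨t4, rfl⟩ : ∃ t4, c2 = Col.T t4 := by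
          cases c2 with
          | T e => exact ⟨e, rfl⟩
          | D k => exact absurd rfl (nDc a14 k)
          | N j =>
            exact absurd (hg2.trans hc) (by simp)
          | G _ _ _ =>
            exact absurd (hg2.trans hc) (by simp)
        have hlt : (Col.T t2 : Col h dc) < Col.T t4 := hg2.trans hc
        rw [Col.T_lt_T] at hlt
        rw [Row.T_lt_T] at h2
        simp only [Am_T_T] at a12 a14 _a22 a24
        exact no_W h2 hlt a12 a14 _a22 a24
      | N j =>
        cases g1 with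
        | N j' =>
          cases g0 with
          | N j'' => exact hg0N _ rfl
          | G _ _ _ => simp at hg0
          | T _ => simp at hg0
          | D _ => simp at hg0
        | G _ _ _ => simp at hg1
        | T _ => simp at hg1
        | D _ => simp at hg1
      | G φ2 b2 j2 =>
        -- g1 is a frame column
        obtain ⟨φ1, b1, j1, rfl⟩ : ∃ φ1 b1 j1, g1 = (Col.G φ1 b1 j1 : Col h dc) := by
          cases g1 with
          | N j' =>
            cases g0 with
            | N j'' => exact absurd rfl (hg0N _)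
            | G _ _ _ => simp at hg0
            | T _ => simp at hg0
            | D _ => simp at hg0
          | G φ b j => exact ⟨φ, b, j, rfl⟩
          | T _ => simp at hg1
          | D _ => simp at hg1
        obtain ⟨φ0, b0, j0, rfl⟩ : ∃ φ0 b0 j0, g0 = (Col.G φ0 b0 j0 : Col h dc) := by
          cases g0 with
          | N j'' => exact absurd rfl (hg0N _)
          | G φ b j => exact ⟨φ, b, j, rfl⟩
          | T _ => simp at hg0
          | D _ => simp at hg0
        cases f1 with
        | D k => exact nD a00 k rfl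
        | T e1 =>
          simp only [Am_T_G] at a01 a02 a11 a12
          have hrk := Col.G_rank hg1
          have := laminar_G (h := h) (τ := tau φ1 b1) (τ' := tau φ2 b2)
            (fun t ht => tau_below_le _ _ t ht) (fun t ht => tau_below_le _ _ t ht) hrk
            a01 a02 a12
          rw [this] at a11
          exact absurd a11 (by simp)
        | F ψ β j' =>
          rw [Am_F_G] at a00 a01 a02
          obtain ⟨e0, _⟩ := a00
          obtain ⟨e1, _⟩ := a01
          obtain ⟨e2', _⟩ := a02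
          subst e0
          subst e1
          subst e2'
          simp only [Am_T_G] at a10 a11 a12
          -- bits
          cases b0 <;> cases b1 <;> cases b2 <;>
            first
            | (rw [a10] at a11; exact absurd a11 (by simp))
            | (rw [a12] at a11; exact absurd a11 (by simp))
            | exact absurd hg0 (not_lt.mpr (Col.G_false_lt_true _ _ _).le)
            | exact absurd hg1 (not_lt.mpr (Col.G_false_lt_true _ _ _).le)
  obtain ⟨φ2, β2, j2, rfl⟩ := step1
  -- f1 is a frame row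
  obtain ⟨φ1, β1, j1, rfl⟩ : ∃ φ b j, f1 = (Row.F φ b j : Row h dr) := by
    cases f1 with
    | F φ b j => exact ⟨φ, b, j, rfl⟩
    | T _ => simp at hf
    | D _ => simp at hf
  -- Step 2: g2 is a frame column
  obtain ⟨ψ2, b2, k2, rfl⟩ : ∃ ψ b j, g2 = (Col.G ψ b j : Col h dc) := by
    cases g2 with
    | G ψ b j => exact ⟨ψ, b, j, rfl⟩
    | D k => exact absurd rfl (nDc a02 k)
    | N j =>
      exfalso
      cases g1 with
      | N j' => simp at a11
      | G _ _ _ => simp at hg1
      | T _ => simp at hg1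
      | D _ => simp at hg1
    | T t =>
      exfalso
      obtain ⟨t3, rfl⟩ : ∃ t3, c1 = Col.T t3 := by
        cases c1 with
        | T e => exact ⟨e, rfl⟩
        | D k => exact absurd rfl (nDc a03 k)
        | N _ => simp at hg2
        | G _ _ _ => simp at hg2
      simp only [Am_F_T] at a02 a12 a03 a13
      have := laminar_F (Row.F_rank hf) a02 a12 a03
      rw [this] at a13
      exact absurd a13 (by simp)
  obtain ⟨ψ1, b1, k1, rfl⟩ : ∃ ψ b j, g1 = (Col.G ψ b j : Col h dc) := by
    cases g1 with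
    | G ψ b j => exact ⟨ψ, b, j, rfl⟩
    | D _ => simp at hg1
    | N j => simp at a11
    | T _ => simp at hg1
  rw [Am_F_G] at a01 a02 a12
  obtain ⟨e1, w1⟩ := a01
  obtain ⟨e2, _⟩ := a02
  obtain ⟨e3, w3⟩ := a12
  subst e1
  subst e2
  subst e3
  have hβ2 : β2 = true ∧ b1 = false := by
    have : (decide ((φ2 : Frame h) = φ2) && WW β2 b1) = false := by
      have h4 : Am (Row.F φ2 β2 j2 : Row h dr) (Col.G φ2 b1 k1 : Col h dc) = false := a11
      simpa [Am] using h4
    revert this
    cases β2 <;> cases b1 <;> simp [WW]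
  obtain ⟨rfl, rfl⟩ := hβ2
  have hb2 : b2 = true := by
    revert w3; cases b2 <;> simp [WW]
  subst hb2
  have hβ1 : β1 = false := by
    revert w1; cases β1 <;> simp [WW]
  subst hβ1
  -- Step 3: r1, r2 are tree rows, c1, c2 are tree columns
  obtain ⟨x, rfl⟩ : ∃ x, r1 = Row.T x := by
    cases r1 with
    | T e => exact ⟨e, rfl⟩
    | D k => exact absurd rfl (nD a21 k)
    | F φ b j =>
      exfalso
      rw [Am_F_G] at a21
      obtain ⟨rfl, w⟩ := a21
      have : b = false := by revert w; cases b <;> simp [WW]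
      subst this
      exact absurd h2 (not_lt.mpr (Row.F_false_lt_true _ _ _).le)
  obtain ⟨x2, rfl⟩ : ∃ x, r2 = Row.T x := by
    cases r2 with
    | T e => exact ⟨e, rfl⟩
    | D k => exact absurd rfl (nD a32 k)
    | F φ b j => simp at h3
  obtain ⟨y1, rfl⟩ : ∃ y, c1 = Col.T y := by
    cases c1 with
    | T e => exact ⟨e, rfl⟩
    | D k => exact absurd rfl (nDc a03 k)
    | N j => simp at hg2
    | G φ b j =>
      exfalso
      rw [Am_F_G] at a03
      obtain ⟨rfl, _⟩ := a03
      have h4 : b = false := by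
        have h5 : Am (Row.F φ2 true j2 : Row h dr) (Col.G φ2 b j : Col h dc) = false := a13
        have : (decide ((φ2 : Frame h) = φ2) && WW true b) = false := by simpa [Am] using h5
        revert this
        cases b <;> simp [WW]
      subst h4
      exact absurd hg2 (not_lt.mpr (Col.G_false_lt_true _ _ _).le)
  obtain ⟨y2, rfl⟩ : ∃ y, c2 = Col.T y := by
    cases c2 with
    | T e => exact ⟨e, rfl⟩
    | D k => exact absurd rfl (nDc a14 k)
    | N j => simp at hc
    | G φ b j => simp at hc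
  simp only [Am_F_T, Am_T_G, Am_T_T] at a03 a14 a21 a32 a23 a24 a33 a34
  rw [Row.T_lt_T] at h3
  rw [Col.T_lt_T] at hc
  obtain ⟨q1, q2, q3, q4⟩ := frame_safe φ2 h3 hc a23 a24 a33 a34 a21 a32 a03 a14
  exact ⟨x, y2, rfl, rfl, q1, q2, q3, q4⟩

end Crest.Agent.Lib.S66
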