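import Mathlib

/-!
# S0066: tree elements, in-order layout and the tree matrix `val`

Nodes of a perfect binary tree of height `h` are dyadic intervals.  A tree element is a node,
a label (`a`, `m` or `p`) and an index in a block.
-/

namespace Crest.Agent.Lib.S66

/-- Labels of blocks. -/
inductive Lab | a | m | p
  deriving DecidableEq

instance : Fintype Lab := ⟨{.a, .m, .p}, by intro x; cases x <;> simp⟩

/-- The table of ones at one node. -/
def tbl : Lab → Lab → Bool
  | .a, .m => true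
  | .m, .p => true
  | .p, .a => true
  | _, _ => false

/-- Block sizes. -/
def M (d : ℕ) : ℕ := if d = 0 then 1 else 3 * 2 ^ d

lemma M_pos (d : ℕ) : 0 < M d := by
  unfold M; split_ifs <;> positivity

/-- Nodes. -/
abbrev Nd (h : ℕ) := Σ d : Fin (h + 1), Fin (2 ^ (h - d.val))

/-- Level of a node. -/
def Nd.d {h : ℕ} (n : Nd h) : ℕ := n.1.val
/-- Index of a node within its level. -/
def Nd.i {h : ℕ} (n : Nd h) : ℕ := n.2.val

lemma Nd.d_le {h : ℕ} (n : Nd h) : n.d ≤ h := Nat.lt_succ_iff.mp n.1.isLt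
lemma Nd.i_lt {h : ℕ} (n : Nd h) : n.i < 2 ^ (h - n.d) := n.2.isLt

lemma Nd.ext' {h : ℕ} {u v : Nd h} (h1 : u.d = v.d) (h2 : u.i = v.i) : u = v := by
  obtain ⟨⟨d, hd⟩, ⟨i, hi⟩⟩ := u
  obtain ⟨⟨d', hd'⟩, ⟨i', hi'⟩⟩ := v
  simp only [Nd.d, Nd.i] at h1 h2
  subst h1
  subst h2
  rfl

/-- Build a node. -/
def mkNd {h : ℕ} (d i : ℕ) (hd : d ≤ h) (hi : i < 2 ^ (h - d)) : Nd h :=
  ⟨⟨d, Nat.lt_succ_of_le hd⟩, ⟨i, hi⟩⟩

@[simp] lemma mkNd_d {h : ℕ} (d i : ℕ) (hd : d ≤ h) (hi : i < 2 ^ (h - d)) :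
    (mkNd d i hd hi).d = d := rfl
@[simp] lemma mkNd_i {h : ℕ} (d i : ℕ) (hd : d ≤ h) (hi : i < 2 ^ (h - d)) :
    (mkNd d i hd hi).i = i := rfl

/-- Left end of the interval of a node. -/
def lo {h : ℕ} (n : Nd h) : ℕ := n.i * 2 ^ (n.d + 1)
/-- Centre of the interval of a node. -/
def mid {h : ℕ} (n : Nd h) : ℕ := n.i * 2 ^ (n.d + 1) + 2 ^ n.d
/-- Right end of the interval of a node. -/
def hi {h : ℕ} (n : Nd h) : ℕ := (n.i + 1) * 2 ^ (n.d + 1)

lemma mid_eq {h : ℕ} (n : Nd h) : mid n = lo n + 2 ^ n.d := rfl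
lemma hi_eq {h : ℕ} (n : Nd h) : hi n = lo n + 2 * 2 ^ n.d := by
  simp only [hi, lo, pow_succ]; ring
lemma two_pow_pos' (d : ℕ) : 0 < 2 ^ d := by positivity
lemma lo_lt_mid {h : ℕ} (n : Nd h) : lo n < mid n := by
  have := two_pow_pos' n.d; rw [mid_eq]; omega
lemma mid_lt_hi {h : ℕ} (n : Nd h) : mid n < hi n := by
  have := two_pow_pos' n.d; rw [mid_eq, hi_eq]; omega

/-- Disjoint or nested; strict nesting goes into one half. -/
lemma nest_aux {h : ℕ} (u v : Nd h) (hd : u.d < v.d) :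
    hi u ≤ lo v ∨ hi v ≤ lo u ∨ (lo v ≤ lo u ∧ hi u ≤ hi v ∧ (hi u ≤ mid v ∨ mid v ≤ lo u)) := by
  obtain ⟨k, hk⟩ : ∃ k, v.d = u.d + k + 1 := ⟨v.d - u.d - 1, by omega⟩
  set w := 2 ^ (u.d + 1) with hw
  set K := 2 ^ k with hK
  have hKpos : 0 < K := by positivity
  have hwpos : 0 < w := by positivity
  have e1 : 2 ^ v.d = K * w := by
    rw [hk, hK, hw]; ring
  have e2 : 2 ^ (v.d + 1) = 2 * (K * w) := by
    rw [pow_succ, e1]; ring
  have lou : lo u = u.i * w := rfl
  have hiu : hi u = (u.i + 1) * w := rfl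
  have lov : lo v = v.i * (2 * (K * w)) := by simp only [lo, e2]
  have midv : mid v = (2 * v.i + 1) * (K * w) := by
    simp only [mid, e2, e1]; ring
  have hiv : hi v = (2 * v.i + 2) * (K * w) := by
    simp only [hi, e2]; ring
  set q := u.i / K with hq
  have hq1 : q * K ≤ u.i := Nat.div_mul_le_self _ _
  have hq2 : u.i + 1 ≤ (q + 1) * K := by
    have h3 := Nat.lt_mul_div_succ u.i hKpos
    rw [← hq] at h3
    rw [mul_comm]; exact h3
  have lo_ge : q * (K * w) ≤ lo u := by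
    rw [lou, ← mul_assoc]; exact Nat.mul_le_mul_right _ hq1
  have hi_le : hi u ≤ (q + 1) * (K * w) := by
    rw [hiu, ← mul_assoc]; exact Nat.mul_le_mul_right _ hq2
  rcases lt_trichotomy q (2 * v.i) with hlt | heq | hgt
  · left
    calc hi u ≤ (q + 1) * (K * w) := hi_le
      _ ≤ (2 * v.i) * (K * w) := Nat.mul_le_mul_right _ (by omega)
      _ = lo v := by rw [lov]; ring
  · right; right
    have h1 : lo v ≤ lo u := by
      calc lo v = (2 * v.i) * (K * w) := by rw [lov]; ring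
        _ = q * (K * w) := by rw [heq]
        _ ≤ lo u := lo_ge
    have h2 : hi u ≤ mid v := by
      calc hi u ≤ (q + 1) * (K * w) := hi_le
        _ = mid v := by rw [midv, heq]
    have h3 : mid v ≤ hi v := le_of_lt (mid_lt_hi v)
    exact ⟨h1, h2.trans h3, Or.inl h2⟩
  · rcases Nat.lt_or_ge (2 * v.i + 1) q with hgt' | hle
    · right; left
      calc hi v = (2 * v.i + 2) * (K * w) := hiv
        _ ≤ q * (K * w) := Nat.mul_le_mul_right _ (by omega)
        _ ≤ lo u := lo_ge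
    · have heq' : q = 2 * v.i + 1 := by omega
      right; right
      have h2 : mid v ≤ lo u := by
        calc mid v = (2 * v.i + 1) * (K * w) := midv
          _ = q * (K * w) := by rw [heq']
          _ ≤ lo u := lo_ge
      have h1 : lo v ≤ lo u := (le_of_lt (lo_lt_mid v)).trans h2
      have h3 : hi u ≤ hi v := by
        calc hi u ≤ (q + 1) * (K * w) := hi_le
          _ = hi v := by rw [hiv, heq']
      exact ⟨h1, h3, Or.inr h2⟩

lemma same_level_aux {h : ℕ} (u v : Nd h) (hd : u.d = v.d) (hi' : u.i < v.i) : hi u ≤ lo v := by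
  simp only [hi, lo, hd]
  exact Nat.mul_le_mul_right _ hi'

/-- The laminar family of dyadic intervals. -/
lemma laminar {h : ℕ} (u v : Nd h) :
    hi u ≤ lo v ∨ hi v ≤ lo u ∨ u = v ∨
      (u.d < v.d ∧ lo v ≤ lo u ∧ hi u ≤ hi v ∧ (hi u ≤ mid v ∨ mid v ≤ lo u)) ∨
      (v.d < u.d ∧ lo u ≤ lo v ∧ hi v ≤ hi u ∧ (hi v ≤ mid u ∨ mid u ≤ lo v)) := by
  rcases lt_trichotomy u.d v.d with hlt | heq | hgt
  · rcases nest_aux u v hlt with h1 | h1 | h1
    · exact Or.inl h1
    · exact Or.inr (Or.inl h1)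
    · exact Or.inr (Or.inr (Or.inr (Or.inl ⟨hlt, h1⟩)))
  · rcases lt_trichotomy u.i v.i with hlt | hi' | hgt
    · exact Or.inl (same_level_aux u v heq hlt)
    · exact Or.inr (Or.inr (Or.inl (Nd.ext' heq hi')))
    · exact Or.inr (Or.inl (same_level_aux v u heq.symm hgt))
  · rcases nest_aux v u hgt with h1 | h1 | h1
    · exact Or.inr (Or.inl h1)
    · exact Or.inl h1
    · exact Or.inr (Or.inr (Or.inr (Or.inr ⟨hgt, h1⟩)))

/-- Tree elements. -/
abbrev TE (h : ℕ) := Σ n : Nd h, Lab × Fin (M n.d)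

/-- Node of a tree element. -/
def TE.nd {h : ℕ} (e : TE h) : Nd h := e.1
/-- Label of a tree element. -/
def TE.lab {h : ℕ} (e : TE h) : Lab := e.2.1
/-- Index of a tree element in its block. -/
def TE.pos {h : ℕ} (e : TE h) : ℕ := e.2.2.val
/-- Level of a tree element. -/
def TE.lev {h : ℕ} (e : TE h) : ℕ := e.nd.d

/-- Build a tree element. -/
def mkTE {h : ℕ} (n : Nd h) (l : Lab) (j : Fin (M n.d)) : TE h := ⟨n, l, j⟩

@[simp] lemma mkTE_nd {h : ℕ} (n : Nd h) (l : Lab) (j : Fin (M n.d)) : (mkTE n l j).nd = n := rfl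
@[simp] lemma mkTE_lab {h : ℕ} (n : Nd h) (l : Lab) (j : Fin (M n.d)) :
    (mkTE n l j).lab = l := rfl

lemma TE.ext' {h : ℕ} {e e' : TE h} (h1 : e.nd = e'.nd) (h2 : e.lab = e'.lab)
    (h3 : e.pos = e'.pos) : e = e' := by
  obtain ⟨n, l, j⟩ := e
  obtain ⟨n', l', j'⟩ := e'
  simp only [TE.nd, TE.lab, TE.pos] at h1 h2 h3
  subst h1
  subst h2
  have : j = j' := Fin.ext h3
  subst this
  rfl

/-- First order coordinate. -/
def TE.X {h : ℕ} (e : TE h) : ℕ :=
  match e.lab with
  | .a => lo e.nd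
  | .m => mid e.nd
  | .p => hi e.nd

/-- Second order coordinate. -/
def TE.phase {h : ℕ} (e : TE h) : ℕ :=
  match e.lab with
  | .a => 2
  | .m => 1
  | .p => 0

/-- Third order coordinate. -/
def TE.tie {h : ℕ} (e : TE h) : ℕ :=
  match e.lab with
  | .a => h - e.nd.d
  | .m => e.nd.d
  | .p => e.nd.d

/-- The order key of a tree element. -/
def TE.key {h : ℕ} (e : TE h) : ℕ ×ₗ ℕ ×ₗ ℕ ×ₗ ℕ ×ₗ ℕ :=
  toLex (e.X, toLex (e.phase, toLex (e.tie, toLex (e.nd.i, e.pos))))

lemma TE.key_inj {h : ℕ} : Function.Injective (TE.key (h := h)) := by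
  intro e e' he
  simp only [TE.key, EmbeddingLike.apply_eq_iff_eq, Prod.mk.injEq] at he
  obtain ⟨h1, h2, h3, h4, h5⟩ := he
  have hlab : e.lab = e'.lab := by
    simp only [TE.phase] at h2
    cases hl : e.lab <;> cases hl' : e'.lab <;> simp [hl, hl'] at h2 ⊢
  have hd1 := e.nd.d_le
  have hd2 := e'.nd.d_le
  have hd : e.nd.d = e'.nd.d := by
    simp only [TE.tie, hlab] at h3
    cases hl' : e'.lab <;> simp only [hl'] at h3 <;> omega
  exact TE.ext' (Nd.ext' hd h4) hlab h5

noncomputable instance instLinearOrderTE (h : ℕ) : LinearOrder (TE h) :=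
  LinearOrder.lift' TE.key TE.key_inj

lemma TE.lt_def {h : ℕ} {e e' : TE h} : e < e' ↔ e.key < e'.key := Iff.rfl

lemma TE.lt_of_X {h : ℕ} {e e' : TE h} (hx : e.X < e'.X) : e < e' := by
  rw [TE.lt_def]; simp only [TE.key]
  exact Prod.Lex.toLex_lt_toLex.mpr (Or.inl hx)

lemma TE.lt_of_phase {h : ℕ} {e e' : TE h} (hx : e.X = e'.X) (hp : e.phase < e'.phase) :
    e < e' := by
  rw [TE.lt_def]; simp only [TE.key]
  refine Prod.Lex.toLex_lt_toLex.mpr (Or.inr ⟨hx, ?_⟩)
  exact Prod.Lex.toLex_lt_toLex.mpr (Or.inl hp)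

lemma TE.lt_of_tie {h : ℕ} {e e' : TE h} (hx : e.X = e'.X) (hp : e.phase = e'.phase)
    (ht : e.tie < e'.tie) : e < e' := by
  rw [TE.lt_def]; simp only [TE.key]
  refine Prod.Lex.toLex_lt_toLex.mpr (Or.inr ⟨hx, ?_⟩)
  refine Prod.Lex.toLex_lt_toLex.mpr (Or.inr ⟨hp, ?_⟩)
  exact Prod.Lex.toLex_lt_toLex.mpr (Or.inl ht)

lemma TE.X_ge {h : ℕ} (e : TE h) : lo e.nd ≤ e.X := by
  have h1 := lo_lt_mid e.nd
  have h2 := mid_lt_hi e.nd
  simp only [TE.X]
  cases e.lab <;> simp only <;> omega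

lemma TE.X_le {h : ℕ} (e : TE h) : e.X ≤ hi e.nd := by
  have h1 := lo_lt_mid e.nd
  have h2 := mid_lt_hi e.nd
  simp only [TE.X]
  cases e.lab <;> simp only <;> omega

/-- If `e'` lies entirely left of `e` then `e' < e`. -/
lemma TE.lt_of_left {h : ℕ} {e e' : TE h} (hle : hi e.nd ≤ lo e'.nd) : e < e' := by
  have h1 := e.X_le
  have h2 := e'.X_ge
  have h3 := lo_lt_mid e.nd
  have h4 := mid_lt_hi e.nd
  have h5 := lo_lt_mid e'.nd
  have h6 := mid_lt_hi e'.nd
  rcases Nat.lt_or_ge e.X e'.X with hlt | hge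
  · exact TE.lt_of_X hlt
  · have hXe : e.X = e'.X := by omega
    apply TE.lt_of_phase hXe
    simp only [TE.X] at hXe
    simp only [TE.phase]
    cases hl : e.lab <;> cases hl' : e'.lab <;> simp only [hl, hl'] at hXe ⊢ <;> omega

/-- `e < e'` prevents `e'` lying entirely left of `e`. -/
lemma TE.lo_lt_hi_of_lt {h : ℕ} {e e' : TE h} (hlt : e < e') : lo e.nd < hi e'.nd := by
  by_contra hcon
  exact absurd hlt (not_lt.mpr (le_of_lt (TE.lt_of_left (not_lt.mp hcon))))

/-- Label `a` at a node comes before everything strictly under it. -/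
lemma TE.a_lt_under {h : ℕ} {e e' : TE h} (hl : e.lab = .a) (hd : e'.nd.d < e.nd.d)
    (h1 : lo e.nd ≤ lo e'.nd) (h2 : hi e'.nd ≤ hi e.nd) : e < e' := by
  have hd1 := e.nd.d_le
  have h3 := e'.X_ge
  have hX : e.X = lo e.nd := by simp only [TE.X, hl]
  rcases Nat.lt_or_ge e.X e'.X with hlt | hge
  · exact TE.lt_of_X hlt
  · have hXe : e.X = e'.X := by omega
    have h5 := lo_lt_mid e'.nd
    have h6 := mid_lt_hi e'.nd
    have hl' : e'.lab = .a := by
      simp only [TE.X] at hXe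
      simp only [hl] at hXe
      cases hl' : e'.lab <;> simp only [hl'] at hXe ⊢ <;> omega
    apply TE.lt_of_tie hXe
    · simp only [TE.phase, hl, hl']
    · simp only [TE.tie, hl, hl']; omega

/-- Label `p` at a node comes after everything strictly under it. -/
lemma TE.under_lt_p {h : ℕ} {e e' : TE h} (hl : e.lab = .p) (hd : e'.nd.d < e.nd.d)
    (h1 : lo e.nd ≤ lo e'.nd) (h2 : hi e'.nd ≤ hi e.nd) : e' < e := by
  have h3 := e'.X_le
  have hX : e.X = hi e.nd := by simp only [TE.X, hl]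
  rcases Nat.lt_or_ge e'.X e.X with hlt | hge
  · exact TE.lt_of_X hlt
  · have hXe : e'.X = e.X := by omega
    have h5 := lo_lt_mid e'.nd
    have h6 := mid_lt_hi e'.nd
    have hl' : e'.lab = .p := by
      simp only [TE.X] at hXe
      simp only [hl] at hXe
      cases hl' : e'.lab <;> simp only [hl'] at hXe ⊢ <;> omega
    apply TE.lt_of_tie hXe
    · simp only [TE.phase, hl, hl']
    · simp only [TE.tie, hl, hl']; omega

/-- Label `m`: elements in the left half come before. -/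
lemma TE.left_lt_m {h : ℕ} {e e' : TE h} (hl : e.lab = .m) (h2 : hi e'.nd ≤ mid e.nd) :
    e' < e := by
  have h3 := e'.X_le
  have hX : e.X = mid e.nd := by simp only [TE.X, hl]
  rcases Nat.lt_or_ge e'.X e.X with hlt | hge
  · exact TE.lt_of_X hlt
  · have hXe : e'.X = e.X := by omega
    apply TE.lt_of_phase hXe
    have h5 := lo_lt_mid e'.nd
    have h6 := mid_lt_hi e'.nd
    simp only [TE.X, hl] at hXe
    simp only [TE.phase, hl]
    cases hl' : e'.lab <;> simp only [hl'] at hXe ⊢ <;> omega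

/-- Label `m`: elements in the right half come after. -/
lemma TE.m_lt_right {h : ℕ} {e e' : TE h} (hl : e.lab = .m) (h2 : mid e.nd ≤ lo e'.nd) :
    e < e' := by
  have h3 := e'.X_ge
  have hX : e.X = mid e.nd := by simp only [TE.X, hl]
  rcases Nat.lt_or_ge e.X e'.X with hlt | hge
  · exact TE.lt_of_X hlt
  · have hXe : e.X = e'.X := by omega
    apply TE.lt_of_phase hXe
    have h5 := lo_lt_mid e'.nd
    have h6 := mid_lt_hi e'.nd
    simp only [TE.X, hl] at hXe
    simp only [TE.phase, hl]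
    cases hl' : e'.lab <;> simp only [hl'] at hXe ⊢ <;> omega

/-- Same node: label order. -/
lemma TE.lab_order {h : ℕ} {e e' : TE h} (hn : e.nd = e'.nd)
    (hl : (e.lab = .a ∧ e'.lab ≠ .a) ∨ (e.lab = .m ∧ e'.lab = .p)) : e < e' := by
  have h5 := lo_lt_mid e'.nd
  have h6 := mid_lt_hi e'.nd
  apply TE.lt_of_X
  simp only [TE.X, hn]
  rcases hl with ⟨h1, h2⟩ | ⟨h1, h2⟩
  · cases hl' : e'.lab
    · exact absurd hl' h2
    · simp only [h1]; omega
    · simp only [h1]; omega
  · simp only [h1, h2]; omega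

/-- The tree matrix. -/
def val {h : ℕ} (r c : TE h) : Bool :=
  if hi c.nd ≤ lo r.nd then true else if r.nd = c.nd then tbl r.lab c.lab else false

lemma val_natural {h : ℕ} {r c : TE h} (hle : hi c.nd ≤ lo r.nd) : val r c = true := by
  simp [val, hle]

lemma val_same {h : ℕ} {r c : TE h} (hn : r.nd = c.nd) : val r c = tbl r.lab c.lab := by
  have : ¬ hi c.nd ≤ lo r.nd := by
    have h1 := lo_lt_mid c.nd
    have h2 := mid_lt_hi c.nd
    rw [hn]; omega
  unfold val
  rw [if_neg this, if_pos hn]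

lemma val_other {h : ℕ} {r c : TE h} (hn : r.nd ≠ c.nd) (hle : ¬ hi c.nd ≤ lo r.nd) :
    val r c = false := by
  simp [val, hle, hn]

lemma val_true_cases {h : ℕ} {r c : TE h} (hv : val r c = true) :
    hi c.nd ≤ lo r.nd ∨ (r.nd = c.nd ∧ tbl r.lab c.lab = true) := by
  by_cases hle : hi c.nd ≤ lo r.nd
  · exact Or.inl hle
  · by_cases hn : r.nd = c.nd
    · exact Or.inr ⟨hn, by rwa [val_same hn] at hv⟩
    · rw [val_other hn hle] at hv; exact absurd hv (by simp)

lemma val_false_not {h : ℕ} {r c : TE h} (hv : val r c = false) : ¬ hi c.nd ≤ lo r.nd := by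
  intro hle; rw [val_natural hle] at hv; exact absurd hv (by simp)

/-- The pattern `[[1,1],[0,1]]` does not occur in the tree matrix. -/
theorem no_W {h : ℕ} {i i' j j' : TE h} (hi' : i < i') (hj : j < j')
    (v1 : val i j = true) (v2 : val i j' = true) (v3 : val i' j = false)
    (v4 : val i' j' = true) : False := by
  have hv3 := val_false_not v3
  rcases val_true_cases v4 with hn | ⟨hn, ht⟩
  · -- natural one at the bottom right
    have h1 := TE.lo_lt_hi_of_lt hj
    have hj1 := lo_lt_mid j'.nd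
    have hj2 := mid_lt_hi j'.nd
    have hq : lo j.nd < lo i'.nd := by omega
    have ha1 := lo_lt_mid i'.nd
    have ha2 := mid_lt_hi i'.nd
    have hq1 := lo_lt_mid j.nd
    have hq2 := mid_lt_hi j.nd
    -- i' strictly under q = node of j
    rcases laminar i'.nd j.nd with h | h | h | ⟨hd, h2, h3, h4⟩ | ⟨hd, h2, h3, h4⟩
    · omega
    · omega
    · rw [h] at hq; omega
    · -- strictly under
      rcases val_true_cases v1 with hp | ⟨hp, htb⟩
      · -- i right of q, but i < i'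
        have := TE.lo_lt_hi_of_lt hi'
        omega
      · -- i, j same node
        have hb : ¬ hi j'.nd ≤ lo i.nd := by
          rw [hp]; omega
        rcases val_true_cases v2 with hq3 | ⟨hq3, _⟩
        · exact hb hq3
        · rw [hp] at hq3
          rw [← hq3] at hn
          omega
    · omega
  · -- table one at the bottom right
    rcases val_true_cases v2 with hp | ⟨hp, htb⟩
    · have := TE.lo_lt_hi_of_lt hi'
      have h1 := lo_lt_mid i.nd
      have h2 := mid_lt_hi i.nd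
      have h3 := lo_lt_mid i'.nd
      have h4 := mid_lt_hi i'.nd
      have hlt : i' < i := TE.lt_of_left (by rw [hn]; exact hp)
      exact absurd hi' (not_lt.mpr (le_of_lt hlt))
    · have hnn : i.nd = i'.nd := by rw [hp, hn]
      have hll : i.lab = i'.lab := by
        revert ht htb
        cases i.lab <;> cases i'.lab <;> cases j'.lab <;> simp [tbl]
      have : val i j = val i' j := by
        simp only [val, hnn, hll]
      rw [this, v3] at v1
      exact absurd v1 (by simp)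

end Crest.Agent.Lib.S66
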